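import Crest.Statements.S0137

set_option autoImplicit false
open MeasureTheory Crest.AnalysisR Polynomial

namespace Crest.Agent.S0137

lemma poly_eval_form {Q : ℤ[X]} (hQ : Q.Monic) (hd : Q.natDegree = 4) {A : Type*} [CommRing A]
    (x : A) : aeval x Q = x ^ 4 + (Q.coeff 3 : A) * x ^ 3 + (Q.coeff 2 : A) * x ^ 2 +
      (Q.coeff 1 : A) * x + (Q.coeff 0 : A) := by
  rw [aeval_eq_sum_range, hd]
  have h4 : Q.coeff 4 = 1 := by
    have := hQ.coeff_natDegree
    rwa [hd] at this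
  simp only [Finset.sum_range_succ, Finset.sum_range_zero, h4, zsmul_eq_mul]
  push_cast
  ring

lemma int_cases {γ γ' : ℝ} {s c : ℤ} (hs : γ + γ' = s) (hc : γ * γ' = c) (h1 : 2 < γ)
    (h2 : γ < 5 / 2) (h3 : γ' < 2) (h4 : -2 < γ') : (s = 1 ∧ c = -3) ∨ (s = 2 ∧ c = -1) := by
  have i1 : 4 - 2 * s + c < 0 := by
    have : (4 - 2 * s + c : ℝ) < 0 := by
      rw [← hs, ← hc]
      nlinarith [mul_pos (sub_pos.2 h1) (sub_pos.2 h3)]
    exact_mod_cast this
  have i2 : 0 < 25 - 10 * s + 4 * c := by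
    have : (0:ℝ) < 25 - 10 * s + 4 * c := by
      rw [← hs, ← hc]
      nlinarith [mul_pos (sub_pos.2 h2) (by linarith : 0 < 5 / 2 - γ')]
    exact_mod_cast this
  have i3 : 0 < 4 + 2 * s + c := by
    have : (0:ℝ) < 4 + 2 * s + c := by
      rw [← hs, ← hc]
      nlinarith [mul_pos (by linarith : 0 < 2 + γ) (by linarith : 0 < 2 + γ')]
    exact_mod_cast this
  have i4 : 0 < s := by
    have : (0:ℝ) < s := by rw [← hs]; linarith
    exact_mod_cast this
  have i5 : s < 5 := by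
    have : (s:ℝ) < 5 := by rw [← hs]; linarith
    exact_mod_cast this
  omega

theorem classify (β : ℝ) (hβ : IsQuarticSalem β) (hβ2 : β < 2) :
    ∃ (γ γ' : ℝ) (z : ℂ), β + β⁻¹ = γ ∧ 2 < γ ∧ ‖z‖ = 1 ∧ 2 * z.re = γ' ∧
      ((γ + γ' = 1 ∧ γ * γ' = -3) ∨ (γ + γ' = 2 ∧ γ * γ' = -1)) := by
  obtain ⟨h1, hint, hdeg, hinv, hroots⟩ := hβ
  have hb0 : 0 < β := by linarith
  set P := minpoly ℚ β with hP
  set Q := minpoly ℤ β with hQ
  have hPQ : P = Q.map (algebraMap ℤ ℚ) := minpoly.isIntegrallyClosed_eq_field_fractions' ℚ hint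
  have hQm : Q.Monic := minpoly.monic hint
  have hQd : Q.natDegree = 4 := by
    rw [← hdeg, hPQ, hQm.natDegree_map]
  have hirr : Irreducible P := minpoly.irreducible (hint.tower_top)
  have hPm : P.Monic := minpoly.monic (hint.tower_top)
  -- evaluation over ℝ and ℂ
  have hevR : ∀ x : ℝ, aeval x P = aeval x Q := by
    intro x
    rw [hPQ, aeval_map_algebraMap]
  have hevC : ∀ x : ℂ, aeval x P = aeval x Q := by
    intro x
    rw [hPQ, aeval_map_algebraMap]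
  -- existence of another root
  obtain ⟨z, hz0, hz1, hz2⟩ : ∃ z : ℂ, aeval z P = 0 ∧ z ≠ (β : ℂ) ∧ z ≠ ((β⁻¹ : ℝ) : ℂ) := by
    by_contra hcon
    push Not at hcon
    have hcard := card_rootSet_eq_natDegree (K := ℂ) hirr.separable
      (IsAlgClosed.splits (P.map (algebraMap ℚ ℂ)))
    rw [hdeg] at hcard
    have hsub : P.rootSet ℂ ⊆ {(β : ℂ), ((β⁻¹ : ℝ) : ℂ)} := by
      intro z hz
      rw [mem_rootSet] at hz
      by_cases h : z = (β : ℂ)
      · simp [h]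
      · simp [hcon z hz.2 h]
    have h5 : (P.rootSet ℂ).ncard ≤ 2 := by
      refine (Set.ncard_le_ncard hsub).trans ?_
      exact Set.ncard_insert_le _ _ |>.trans (by simp)
    rw [← Nat.card_coe_set_eq, Nat.card_eq_fintype_card, hcard] at h5
    omega
  have hzn : ‖z‖ = 1 := by
    rcases hroots z hz0 with h | h | h
    · exact absurd h hz1
    · exact absurd h hz2
    · exact h
  have hnoratroot : ∀ q : ℚ, P.eval q ≠ 0 := by
    intro q hq
    have h2 := degree_eq_one_of_irreducible_of_root hirr hq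
    have h3 : P.natDegree = 1 := natDegree_eq_of_degree_eq_some (n := 1) (by rw [h2]; rfl)
    rw [hdeg] at h3
    norm_num at h3
  have hzi : z.im ≠ 0 := by
    intro him
    have hre : z.re ^ 2 = 1 := by
      have := Complex.sq_norm z
      rw [hzn, Complex.normSq_apply, him] at this
      nlinarith
    have hz3 : z = ((z.re : ℝ) : ℂ) := by
      apply Complex.ext <;> simp [him]
    have hre2 : z.re = 1 ∨ z.re = -1 := by
      rcases eq_or_ne (z.re) 1 with h | h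
      · exact Or.inl h
      · right
        have : (z.re - 1) * (z.re + 1) = 0 := by linarith
        rcases mul_eq_zero.1 this with h' | h'
        · exact absurd (by linarith) h
        · linarith
    have key : ∀ q : ℚ, z = (q : ℂ) → False := by
      intro q hq
      apply hnoratroot q
      have h3 : aeval (algebraMap ℚ ℂ q) P = 0 := by
        rw [← hz0, hq]; rfl
      rw [aeval_algebraMap_apply] at h3
      have h4 : aeval q P = 0 := by
        exact (map_eq_zero _).1 h3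
      rwa [coe_aeval_eq_eval] at h4
    rcases hre2 with h | h
    · exact key 1 (by rw [hz3, h]; simp)
    · exact key (-1) (by rw [hz3, h]; simp)
  -- real algebra
  obtain ⟨γ, hγ⟩ : ∃ γ : ℝ, γ = β + β⁻¹ := ⟨_, rfl⟩
  have hbi : β * β⁻¹ = 1 := mul_inv_cancel₀ hb0.ne'
  have hγ2 : 2 < γ := by
    have h3 : (β - 1) ^ 2 > 0 := by
      have : β - 1 > 0 := by linarith
      positivity
    have h4 : β * (γ - 2) = (β - 1) ^ 2 := by rw [hγ]; linear_combination hbi
    have h5 : 0 < β * (γ - 2) := by rw [h4]; exact h3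
    have := (mul_pos_iff_of_pos_left hb0).1 h5
    linarith
  have hγ52 : γ < 5 / 2 := by
    have h4 : β * (5 / 2 - γ) = (2 - β) * (β - 1 / 2) := by rw [hγ]; linear_combination -hbi
    have h5 : 0 < β * (5 / 2 - γ) := by
      rw [h4]; apply mul_pos <;> linarith
    have := (mul_pos_iff_of_pos_left hb0).1 h5
    linarith
  have hne : β ≠ β⁻¹ := by
    intro h
    have : β * β = 1 := by nth_rewrite 2 [h]; exact hbi
    nlinarith
  have e1 : β ^ 4 + (Q.coeff 3 : ℝ) * β ^ 3 + (Q.coeff 2 : ℝ) * β ^ 2 +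
      (Q.coeff 1 : ℝ) * β + (Q.coeff 0 : ℝ) = 0 := by
    rw [← poly_eval_form hQm hQd β]; exact minpoly.aeval ℤ β
  have e2 : (β⁻¹) ^ 4 + (Q.coeff 3 : ℝ) * (β⁻¹) ^ 3 + (Q.coeff 2 : ℝ) * (β⁻¹) ^ 2 +
      (Q.coeff 1 : ℝ) * (β⁻¹) + (Q.coeff 0 : ℝ) = 0 := by
    rw [← poly_eval_form hQm hQd (β⁻¹), ← hevR]; exact hinv
  have e3 : z ^ 4 + (Q.coeff 3 : ℂ) * z ^ 3 + (Q.coeff 2 : ℂ) * z ^ 2 +
      (Q.coeff 1 : ℂ) * z + (Q.coeff 0 : ℂ) = 0 := by
    rw [← poly_eval_form hQm hQd z, ← hevC]; exact hz0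
  generalize Q.coeff 3 = a3 at e1 e2 e3
  generalize Q.coeff 2 = a2 at e1 e2 e3
  generalize Q.coeff 1 = a1 at e1 e2 e3
  generalize Q.coeff 0 = a0 at e1 e2 e3
  have hβγ : β ^ 2 - γ * β + 1 = 0 := by rw [hγ]; linear_combination -hbi
  have hβγ' : (β⁻¹) ^ 2 - γ * β⁻¹ + 1 = 0 := by rw [hγ]; linear_combination -hbi
  obtain ⟨u, hu⟩ : ∃ u : ℝ, u = a3 + γ := ⟨_, rfl⟩
  obtain ⟨v, hv⟩ : ∃ v : ℝ, v = a2 + γ * u - 1 := ⟨_, rfl⟩
  obtain ⟨R1, hR1⟩ : ∃ R : ℝ, R = a1 - (u - γ * v) := ⟨_, rfl⟩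
  obtain ⟨R0, hR0⟩ : ∃ R : ℝ, R = a0 - v := ⟨_, rfl⟩
  have hdiv1 : R1 * β + R0 = 0 := by
    rw [hR1, hR0]
    linear_combination e1 - (β ^ 2 + u * β + v) * hβγ + β ^ 3 * hu + β ^ 2 * hv
  have hdiv2 : R1 * β⁻¹ + R0 = 0 := by
    rw [hR1, hR0]
    linear_combination e2 - ((β⁻¹) ^ 2 + u * β⁻¹ + v) * hβγ' + (β⁻¹) ^ 3 * hu + (β⁻¹) ^ 2 * hv
  have hR1z : R1 = 0 := by
    have h3 : R1 * (β - β⁻¹) = 0 := by linear_combination hdiv1 - hdiv2
    rcases mul_eq_zero.1 h3 with h | h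
    · exact h
    · exact absurd (sub_eq_zero.1 h) hne
  have hR0z : R0 = 0 := by rw [hR1z] at hdiv1; linarith
  -- the complex factorisation
  have hfac : (z ^ 2 - (γ : ℂ) * z + 1) * (z ^ 2 + (u : ℂ) * z + (v : ℂ)) = 0 := by
    have q1 : (a1 : ℝ) = u - γ * v := by linarith
    have q0 : (a0 : ℝ) = v := by linarith
    have q3 : (a3 : ℝ) = u - γ := by linarith
    have q2 : (a2 : ℝ) = v - γ * u + 1 := by linarith
    have c1 : (a1 : ℂ) = (u : ℂ) - γ * v := by exact_mod_cast congrArg (fun x : ℝ => (x : ℂ)) q1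
    have c0 : (a0 : ℂ) = (v : ℂ) := by exact_mod_cast congrArg (fun x : ℝ => (x : ℂ)) q0
    have c3 : (a3 : ℂ) = (u : ℂ) - γ := by exact_mod_cast congrArg (fun x : ℝ => (x : ℂ)) q3
    have c2 : (a2 : ℂ) = (v : ℂ) - γ * u + 1 := by
      exact_mod_cast congrArg (fun x : ℝ => (x : ℂ)) q2
    rw [c1, c0, c3, c2] at e3
    linear_combination e3
  have hnsq : z.re ^ 2 + z.im ^ 2 = 1 := by
    have := Complex.sq_norm z
    rw [hzn, Complex.normSq_apply] at this
    nlinarith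
  have him2 : 0 < z.im ^ 2 := by positivity
  have hre_lt : z.re < 1 := by nlinarith
  have hre_gt : -1 < z.re := by nlinarith
  have hg : z ^ 2 - (γ : ℂ) * z + 1 ≠ 0 := by
    intro h
    have h3 := congrArg Complex.im h
    simp [pow_two] at h3
    have h4 : z.im * (2 * z.re - γ) = 0 := by linarith
    rcases mul_eq_zero.1 h4 with h5 | h5
    · exact hzi h5
    · linarith
  have hh : z ^ 2 + (u : ℂ) * z + (v : ℂ) = 0 := by
    rcases mul_eq_zero.1 hfac with h | h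
    · exact absurd h hg
    · exact h
  have hu2 : u = -(2 * z.re) := by
    have h3 := congrArg Complex.im hh
    simp [pow_two] at h3
    have h4 : z.im * (2 * z.re + u) = 0 := by linarith
    rcases mul_eq_zero.1 h4 with h5 | h5
    · exact absurd h5 hzi
    · linarith
  have hv1 : v = 1 := by
    have h3 := congrArg Complex.re hh
    simp [pow_two] at h3
    rw [hu2] at h3
    linear_combination h3 + hnsq
  -- integers
  have hs : γ + 2 * z.re = ((-a3 : ℤ) : ℝ) := by push_cast; linarith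
  have hc : γ * (2 * z.re) = ((a2 - 2 : ℤ) : ℝ) := by
    push_cast
    rw [hv1, hu2] at hv
    linarith
  obtain ⟨s, hs'⟩ : ∃ s : ℤ, s = -a3 := ⟨_, rfl⟩
  obtain ⟨c, hc'⟩ : ∃ c : ℤ, c = a2 - 2 := ⟨_, rfl⟩
  rw [← hs'] at hs
  rw [← hc'] at hc
  obtain ⟨γ', hγ'⟩ : ∃ γ' : ℝ, 2 * z.re = γ' := ⟨_, rfl⟩
  rw [hγ'] at hs hc
  have k1 : γ' < 2 := by linarith
  have k2 : -2 < γ' := by linarith
  refine ⟨γ, γ', z, hγ.symm, hγ2, hzn, hγ', ?_⟩
  have hcases : (s = 1 ∧ c = -3) ∨ (s = 2 ∧ c = -1) := int_cases hs hc hγ2 hγ52 k1 k2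
  rcases hcases with ⟨rfl, rfl⟩ | ⟨rfl, rfl⟩
  · left; constructor
    · rw [hs]; norm_num
    · rw [hc]; norm_num
  · right; constructor
    · rw [hs]; norm_num
    · rw [hc]; norm_num

end Crest.Agent.S0137
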