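import Crest.Statements.S0137

set_option autoImplicit false
open MeasureTheory ProbabilityTheory Crest.AnalysisR Filter Topology
open Crest Crest.AnalysisR

namespace Crest.Agent.S0137

instance : IsProbabilityMeasure fairCoin := by
  constructor
  unfold fairCoin
  simp [ENNReal.inv_two_add_inv_two]

/-- The `n`-th signed term. -/
noncomputable def sTerm (c : ℝ) (n : ℕ) (b : Bool) : ℝ := if b then c ^ n else -(c ^ n)

lemma measurable_sTerm (c : ℝ) (n : ℕ) : Measurable (sTerm c n) :=
  measurable_of_finite _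

lemma charFun_fairCoin_term (c : ℝ) (n : ℕ) (ξ : ℝ) :
    charFun (fairCoin.map (sTerm c n)) ξ = (Real.cos (ξ * c ^ n) : ℂ) := by
  unfold fairCoin
  rw [Measure.map_add _ _ (measurable_sTerm c n), Measure.map_smul, Measure.map_smul,
    Measure.map_dirac' (measurable_sTerm c n), Measure.map_dirac' (measurable_sTerm c n)]
  rw [charFun_apply_real]
  rw [integral_add_measure, integral_smul_measure, integral_smul_measure, integral_dirac,
    integral_dirac]
  · simp only [sTerm, ENNReal.toReal_inv, ENNReal.toReal_ofNat, if_true]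
    rw [Complex.ofReal_cos, Complex.cos]
    simp
    ring_nf
  · apply Integrable.smul_measure _ (by simp)
    exact (integrable_const (1:ℝ)).mono' (by fun_prop) (by
      filter_upwards with x
      rw [show ((ξ:ℂ) * x * Complex.I) = ((ξ * x : ℝ) : ℂ) * Complex.I by push_cast; ring]
      rw [Complex.norm_exp_ofReal_mul_I])
  · apply Integrable.smul_measure _ (by simp)
    exact (integrable_const (1:ℝ)).mono' (by fun_prop) (by
      filter_upwards with x
      rw [show ((ξ:ℂ) * x * Complex.I) = ((ξ * x : ℝ) : ℂ) * Complex.I by push_cast; ring]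
      rw [Complex.norm_exp_ofReal_mul_I])

/-- the partial sums -/
noncomputable def pSum (c : ℝ) (N : ℕ) (ε : ℕ → Bool) : ℝ := ∑ n ∈ Finset.range N, sTerm c n (ε n)

lemma measurable_pSum (c : ℝ) (N : ℕ) : Measurable (pSum c N) := by
  unfold pSum
  refine Finset.measurable_sum _ fun n _ => ?_
  exact (measurable_sTerm c n).comp (measurable_pi_apply n)

lemma charFun_pSum (c : ℝ) (N : ℕ) (ξ : ℝ) :
    charFun ((Measure.infinitePi (fun _ : ℕ => fairCoin)).map (pSum c N)) ξ =
      ((∏ n ∈ Finset.range N, Real.cos (ξ * c ^ n) : ℝ) : ℂ) := by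
  have hind : iIndepFun (fun (n : ℕ) (ε : ℕ → Bool) => sTerm c n (ε n))
      (Measure.infinitePi (fun _ : ℕ => fairCoin)) :=
    iIndepFun_infinitePi (X := fun n => sTerm c n) (fun n => measurable_sTerm c n)
  have h := (hind.restrict (Finset.range N)).charFun_map_fun_finsetSum_eq_prod
    (s := Finset.range N) (X := fun (n : ℕ) (ε : ℕ → Bool) => sTerm c n (ε n))
    (fun i _ => ((measurable_sTerm c i).comp (measurable_pi_apply i)).aemeasurable)
  have h2 := congrFun h ξ
  unfold pSum
  rw [h2, Finset.prod_apply, Complex.ofReal_prod]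
  refine Finset.prod_congr rfl fun n _ => ?_
  rw [← charFun_fairCoin_term]
  have h3 := Measure.infinitePi_map_eval (fun _ : ℕ => fairCoin) n
  have h4 : (Measure.infinitePi (fun _ : ℕ => fairCoin)).map (fun ε => sTerm c n (ε n)) =
      fairCoin.map (sTerm c n) := by
    conv_rhs => rw [← h3]
    rw [Measure.map_map (measurable_sTerm c n) (measurable_pi_apply n)]
    rfl
  rw [h4]

lemma abs_sTerm (c : ℝ) (hc : 0 ≤ c) (n : ℕ) (b : Bool) : ‖sTerm c n b‖ = c ^ n := by
  unfold sTerm
  split_ifs <;> simp [abs_of_nonneg hc]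

lemma tendsto_pSum (c : ℝ) (hc : 0 ≤ c) (hc1 : c < 1) (ε : ℕ → Bool) :
    Tendsto (fun N => pSum c N ε) atTop (𝓝 (signedPowerSum c ε)) := by
  have hs : Summable (fun n => sTerm c n (ε n)) := by
    refine Summable.of_norm_bounded (summable_geometric_of_lt_one hc hc1) fun n => ?_
    rw [abs_sTerm c hc]
  exact hs.hasSum.tendsto_sum_nat

lemma measurable_signedPowerSum (c : ℝ) (hc : 0 ≤ c) (hc1 : c < 1) :
    Measurable (signedPowerSum c) :=
  measurable_of_tendsto_metrizable (fun N => measurable_pSum c N)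
    (tendsto_pi_nhds.2 fun ε => tendsto_pSum c hc hc1 ε)

lemma isProb_bernoulliConvolution (c : ℝ) (hc : 0 ≤ c) (hc1 : c < 1) :
    IsProbabilityMeasure (bernoulliConvolution c) :=
  Measure.isProbabilityMeasure_map (measurable_signedPowerSum c hc hc1).aemeasurable

lemma norm_cexp (ξ x : ℝ) : ‖Complex.exp (ξ * x * Complex.I)‖ = 1 := by
  rw [show ((ξ:ℂ) * x * Complex.I) = ((ξ * x : ℝ) : ℂ) * Complex.I by push_cast; ring]
  rw [Complex.norm_exp_ofReal_mul_I]

lemma charFun_tendsto (c : ℝ) (hc : 0 ≤ c) (hc1 : c < 1) (ξ : ℝ) :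
    Tendsto (fun N : ℕ => ((∏ n ∈ Finset.range N, Real.cos (ξ * c ^ n) : ℝ) : ℂ)) atTop
      (𝓝 (charFun (bernoulliConvolution c) ξ)) := by
  have h1 : ∀ N : ℕ, ((∏ n ∈ Finset.range N, Real.cos (ξ * c ^ n) : ℝ) : ℂ) =
      ∫ ε, Complex.exp (ξ * (pSum c N ε) * Complex.I)
        ∂(Measure.infinitePi (fun _ : ℕ => fairCoin)) := by
    intro N
    rw [← charFun_pSum, charFun_apply_real, integral_map (measurable_pSum c N).aemeasurable]
    fun_prop
  have h2 : charFun (bernoulliConvolution c) ξ =
      ∫ ε, Complex.exp (ξ * (signedPowerSum c ε) * Complex.I)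
        ∂(Measure.infinitePi (fun _ : ℕ => fairCoin)) := by
    unfold bernoulliConvolution
    rw [charFun_apply_real, integral_map (measurable_signedPowerSum c hc hc1).aemeasurable]
    fun_prop
  simp_rw [h1]
  rw [h2]
  refine tendsto_integral_of_dominated_convergence (fun _ => 1) ?_ (integrable_const _) ?_ ?_
  · intro N
    have := measurable_pSum c N
    exact (by fun_prop : Measurable _).aestronglyMeasurable
  · intro N
    filter_upwards with ε
    rw [norm_cexp]
  · filter_upwards with ε
    have h3 := tendsto_pSum c hc hc1 ε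
    have h4 : Continuous (fun x : ℝ => Complex.exp (ξ * x * Complex.I)) := by fun_prop
    exact (h4.tendsto _).comp h3

end Crest.Agent.S0137
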