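import Mathlib

set_option autoImplicit false
open MeasureTheory ProbabilityTheory Filter Topology
open scoped ComplexConjugate

namespace Crest.Agent.S0137

lemma int_sq_sum (μ : Measure ℝ) [IsProbabilityMeasure μ] (s : Finset ℕ) (H : ℕ → ℝ → ℂ)
    (hH : ∀ m, Continuous (H m)) (hb : ∀ m, ∃ C, ∀ x, ‖H m x‖ ≤ C) :
    ∫ x, ‖∑ m ∈ s, H m x‖ ^ 2 ∂μ ≤ ∑ m ∈ s, ∑ l ∈ s, ‖∫ x, H m x * conj (H l x) ∂μ‖ := by
  have hint : ∀ m l, Integrable (fun x => H m x * conj (H l x)) μ := by
    intro m l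
    obtain ⟨C, hC⟩ := hb m
    obtain ⟨D, hD⟩ := hb l
    have hC0 : 0 ≤ C := (norm_nonneg _).trans (hC 0)
    have h1 := hH m
    have h2 := hH l
    refine (integrable_const (C * D)).mono' (by fun_prop) ?_
    filter_upwards with x
    rw [norm_mul, RCLike.norm_conj]
    exact mul_le_mul (hC x) (hD x) (norm_nonneg _) hC0
  have h1 : ((∫ x, ‖∑ m ∈ s, H m x‖ ^ 2 ∂μ : ℝ) : ℂ) =
      ∑ m ∈ s, ∑ l ∈ s, ∫ x, H m x * conj (H l x) ∂μ := by
    rw [← integral_complex_ofReal]
    have h2 : ∀ x, ((‖∑ m ∈ s, H m x‖ ^ 2 : ℝ) : ℂ) =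
        ∑ m ∈ s, ∑ l ∈ s, H m x * conj (H l x) := by
      intro x
      rw [← Finset.sum_mul_sum, ← map_sum, Complex.mul_conj, Complex.normSq_eq_norm_sq]
    simp_rw [h2]
    rw [integral_finsetSum]
    · refine Finset.sum_congr rfl fun m _ => ?_
      rw [integral_finsetSum]
      intro l _
      exact hint m l
    · intro m _
      exact integrable_finsetSum _ fun l _ => hint m l
  calc ∫ x, ‖∑ m ∈ s, H m x‖ ^ 2 ∂μ ≤ |∫ x, ‖∑ m ∈ s, H m x‖ ^ 2 ∂μ| := le_abs_self _
    _ = ‖((∫ x, ‖∑ m ∈ s, H m x‖ ^ 2 ∂μ : ℝ) : ℂ)‖ := by simp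
    _ ≤ _ := by
      rw [h1]
      refine (norm_sum_le _ _).trans (Finset.sum_le_sum fun m _ => norm_sum_le _ _)

/-- the exponential -/
noncomputable def ee (A : ℝ) (x : ℝ) : ℂ := Complex.exp (A * x * Complex.I)

lemma norm_ee (A x : ℝ) : ‖ee A x‖ = 1 := by
  unfold ee
  rw [show ((A:ℂ) * x * Complex.I) = ((A * x : ℝ) : ℂ) * Complex.I by push_cast; ring]
  rw [Complex.norm_exp_ofReal_mul_I]

lemma continuous_ee (A : ℝ) : Continuous (ee A) := by unfold ee; fun_prop

lemma conj_ee (A x : ℝ) : conj (ee A x) = ee (-A) x := by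
  unfold ee
  rw [← Complex.exp_conj]
  simp

lemma ee_mul (A B x : ℝ) : ee A x * ee B x = ee (A + B) x := by
  unfold ee
  rw [← Complex.exp_add]
  congr 1; push_cast; ring

lemma integral_ee (μ : Measure ℝ) (A : ℝ) : ∫ x, ee A x ∂μ = charFun μ A := by
  rw [charFun_apply_real]; rfl

lemma integrable_ee (μ : Measure ℝ) [IsProbabilityMeasure μ] (A : ℝ) : Integrable (ee A) μ := by
  refine (integrable_const (1:ℝ)).mono' (continuous_ee A).aestronglyMeasurable ?_
  filter_upwards with x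
  rw [norm_ee]

lemma second_a (μ : Measure ℝ) [IsProbabilityMeasure μ] (s : Finset ℕ) (A d : ℕ → ℝ) :
    ∫ x, ‖∑ m ∈ s, (d m : ℂ) * (ee (A m) x - charFun μ (A m))‖ ^ 2 ∂μ ≤
      ∑ m ∈ s, ∑ l ∈ s, |d m| * |d l| *
        ‖charFun μ (A m - A l) - charFun μ (A m) * conj (charFun μ (A l))‖ := by
  refine (int_sq_sum μ s _ ?_ ?_).trans ?_
  · intro m
    have := continuous_ee (A m)
    fun_prop
  · intro m
    refine ⟨|d m| * 2, fun x => ?_⟩
    rw [norm_mul, Complex.norm_real, Real.norm_eq_abs]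
    gcongr
    refine (norm_sub_le _ _).trans ?_
    have := norm_charFun_le_one (μ := μ) (A m)
    rw [norm_ee]; linarith
  · refine Finset.sum_le_sum fun m _ => Finset.sum_le_sum fun l _ => ?_
    have h1 : ∀ x, (d m : ℂ) * (ee (A m) x - charFun μ (A m)) *
        conj ((d l : ℂ) * (ee (A l) x - charFun μ (A l))) =
        ((d m * d l : ℝ) : ℂ) * (ee (A m - A l) x - charFun μ (A m) * ee (-A l) x -
          ee (A m) x * conj (charFun μ (A l)) + charFun μ (A m) * conj (charFun μ (A l))) := by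
      intro x
      rw [map_mul, map_sub, Complex.conj_ofReal, conj_ee, sub_eq_add_neg (A m) (A l), ← ee_mul]
      push_cast
      ring
    simp_rw [h1]
    rw [integral_const_mul, norm_mul, Complex.norm_real, Real.norm_eq_abs, abs_mul]
    gcongr
    apply le_of_eq
    congr 1
    rw [integral_add, integral_sub, integral_sub, integral_const_mul, integral_mul_const,
      integral_ee, integral_ee, integral_ee, charFun_neg]
    · simp
    · exact integrable_ee _ _
    · exact (integrable_ee _ _).const_mul _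
    · exact (integrable_ee _ _).sub ((integrable_ee _ _).const_mul _)
    · exact (integrable_ee _ _).mul_const _
    · exact ((integrable_ee _ _).sub ((integrable_ee _ _).const_mul _)).sub
        ((integrable_ee _ _).mul_const _)
    · exact integrable_const _

lemma second_b (μ : Measure ℝ) [IsProbabilityMeasure μ] (s : Finset ℕ) (A d : ℕ → ℝ) :
    ∫ x, ‖∑ m ∈ s, (d m : ℂ) * ee (A m) x‖ ^ 2 ∂μ ≤
      ∑ m ∈ s, ∑ l ∈ s, |d m| * |d l| * ‖charFun μ (A m - A l)‖ := by
  refine (int_sq_sum μ s _ ?_ ?_).trans ?_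
  · intro m
    have := continuous_ee (A m)
    fun_prop
  · intro m
    refine ⟨|d m|, fun x => ?_⟩
    rw [norm_mul, Complex.norm_real, Real.norm_eq_abs, norm_ee, mul_one]
  · refine Finset.sum_le_sum fun m _ => Finset.sum_le_sum fun l _ => ?_
    have h1 : ∀ x, (d m : ℂ) * ee (A m) x * conj ((d l : ℂ) * ee (A l) x) =
        ((d m * d l : ℝ) : ℂ) * ee (A m - A l) x := by
      intro x
      rw [map_mul, Complex.conj_ofReal, conj_ee, sub_eq_add_neg (A m) (A l), ← ee_mul]
      push_cast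
      ring
    simp_rw [h1]
    rw [integral_const_mul, norm_mul, Complex.norm_real, Real.norm_eq_abs, abs_mul, integral_ee]

end Crest.Agent.S0137
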