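import Mathlib

set_option autoImplicit false
open MeasureTheory ProbabilityTheory Filter Topology

namespace Crest.Agent.S0137

lemma ms_of_sets (ν γ : Measure ℝ)
    (h : ∀ n : ℕ, ∃ s : Set ℝ, MeasurableSet s ∧ ν s ≤ (2⁻¹ : ENNReal) ^ n ∧
      γ sᶜ ≤ (2⁻¹ : ENNReal) ^ n) : ν.MutuallySingular γ := by
  choose s hs hν hγ using h
  have hsum : ∑' n : ℕ, (2⁻¹ : ENNReal) ^ n ≠ ⊤ := by
    rw [ENNReal.tsum_geometric]
    simp
  have h1 : ∑' n, ν (s n) ≠ ⊤ := ne_top_of_le_ne_top hsum (ENNReal.tsum_le_tsum hν)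
  have h2 : ∑' n, γ ((s n)ᶜ) ≠ ⊤ := ne_top_of_le_ne_top hsum (ENNReal.tsum_le_tsum hγ)
  refine ⟨limsup s atTop, MeasurableSet.measurableSet_limsup hs, measure_limsup_atTop_eq_zero h1, ?_⟩
  have h3 := ae_eventually_notMem h2
  rw [ae_iff] at h3
  refine measure_mono_null ?_ h3
  intro x hx h4
  apply hx
  rw [mem_limsup_iff_frequently_mem]
  simp only [Set.mem_compl_iff, not_not] at h4
  exact h4.frequently

lemma real_to_ennreal (μ : Measure ℝ) [IsProbabilityMeasure μ] (s : Set ℝ) (n : ℕ)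
    (h : μ.real s ≤ (2⁻¹ : ℝ) ^ n) : μ s ≤ (2⁻¹ : ENNReal) ^ n := by
  have h1 : μ s = ENNReal.ofReal (μ.real s) := by simp
  rw [h1]
  refine (ENNReal.ofReal_le_ofReal h).trans ?_
  rw [ENNReal.ofReal_pow (by norm_num), ENNReal.ofReal_inv_of_pos (by norm_num)]
  simp

lemma ms_of_tests (ν γ : Measure ℝ) [IsProbabilityMeasure ν] [IsProbabilityMeasure γ]
    (h : ∀ ε : ℝ, 0 < ε → ∃ F : ℝ → ℂ, Continuous F ∧ (∃ C, ∀ x, ‖F x‖ ≤ C) ∧
      ∫ x, ‖F x - 1‖ ^ 2 ∂ν ≤ ε ∧ ∫ x, ‖F x‖ ^ 2 ∂γ ≤ ε) : ν.MutuallySingular γ := by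
  apply ms_of_sets
  intro n
  obtain ⟨F, hF, ⟨C, hC⟩, h1, h2⟩ := h (4⁻¹ * (2⁻¹ : ℝ) ^ n) (by positivity)
  refine ⟨{x | 2⁻¹ ^ 2 ≤ ‖F x - 1‖ ^ 2}, ?_, ?_, ?_⟩
  · exact measurableSet_le measurable_const (by fun_prop)
  · have := mul_meas_ge_le_integral_of_nonneg (μ := ν) (f := fun x => ‖F x - 1‖ ^ 2)
      (by filter_upwards with x; positivity)
      ((integrable_const ((C + 1) ^ 2)).mono' (by fun_prop) (by
        filter_upwards with x
        rw [Real.norm_of_nonneg (by positivity)]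
        gcongr
        exact (norm_sub_le _ _).trans (by simpa using hC x))) (2⁻¹ ^ 2)
    have h3 : ν.real {x | (2:ℝ)⁻¹ ^ 2 ≤ ‖F x - 1‖ ^ 2} ≤ (2⁻¹ : ℝ) ^ n := by
      nlinarith
    exact real_to_ennreal _ _ _ h3
  · have := mul_meas_ge_le_integral_of_nonneg (μ := γ) (f := fun x => ‖F x‖ ^ 2)
      (by filter_upwards with x; positivity)
      ((integrable_const (C ^ 2)).mono' (by fun_prop) (by
        filter_upwards with x
        rw [Real.norm_of_nonneg (by positivity)]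
        gcongr
        exact hC x)) (2⁻¹ ^ 2)
    have h3 : γ.real {x | (2:ℝ)⁻¹ ^ 2 ≤ ‖F x‖ ^ 2} ≤ (2⁻¹ : ℝ) ^ n := by
      nlinarith
    refine (measure_mono ?_).trans (real_to_ennreal _ _ _ h3)
    intro x hx
    simp only [Set.mem_compl_iff, Set.mem_ofPred_eq, not_le] at hx ⊢
    have h5 : ‖F x - 1‖ < 2⁻¹ := lt_of_pow_lt_pow_left₀ 2 (by norm_num) hx
    have h6 : (1:ℝ) ≤ ‖F x‖ + ‖F x - 1‖ := by
      have := norm_sub_le (F x) (F x - 1)
      simpa using this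
    gcongr
    linarith

end Crest.Agent.S0137
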