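import Crest.Agent.S0137.Rec
import Crest.Agent.S0137.CharFun
import Crest.Agent.S0137.Sing
import Crest.Agent.S0137.Second

set_option autoImplicit false
open MeasureTheory ProbabilityTheory Filter Topology Crest.AnalysisR
open scoped ComplexConjugate

namespace Crest.Agent.S0137

/-! ### iteration -/

theorem iterate {b : ℝ} {z : ℂ} (hb : 17 / 10 ≤ b) (hz : ‖z‖ = 1) {X0 l0 : ℕ} {Y0 : ℝ}
    (h : State b z X0 l0 Y0) (hX : 38 ≤ X0) (hl : 10 * l0 ≤ 7 * X0) (k : ℕ) :
    ∃ X l : ℕ, State b z X l (2 ^ k * (Y0 + 4) - 4) ∧ 38 ≤ X ∧ 10 * l ≤ 7 * X ∧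
      (9 / 4 : ℝ) ^ k ≤ 4 * (X:ℝ) - l := by
  induction k with
  | zero =>
    refine ⟨X0, l0, by simpa using h, hX, hl, ?_⟩
    have h1 : (10:ℝ) * l0 ≤ 7 * X0 := by exact_mod_cast hl
    have h2 : (38:ℝ) ≤ X0 := by exact_mod_cast hX
    rw [pow_zero]; linarith
  | succ k ih =>
    obtain ⟨X, l, h1, h2, h3, h4⟩ := ih
    obtain ⟨X', l', g1, g2, g3, g4⟩ := h1.step hb hz h2 h3
    refine ⟨X', l', ?_, g2, g3, ?_⟩
    · convert g1 using 1
      rw [pow_succ]; ring
    · have g5 : (9:ℝ) * (4 * (X:ℝ) - l) ≤ 4 * (4 * (X':ℝ) - l') := by exact_mod_cast g4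
      rw [pow_succ]
      nlinarith

theorem exists_state {b : ℝ} {z : ℂ} (hb : 17 / 10 ≤ b) (hz : ‖z‖ = 1) {X0 l0 : ℕ} {Y0 : ℝ}
    (h : State b z X0 l0 Y0) (hX : 38 ≤ X0) (hl : 10 * l0 ≤ 7 * X0) (n : ℕ) :
    ∃ X l : ℕ, ∃ Y : ℝ, State b z X l Y ∧ 38 ≤ X ∧ 10 * l ≤ 7 * X ∧ n ≤ X ∧ 10 * Y ≤ X := by
  have h1 : Tendsto (fun k : ℕ => (9 / 8 : ℝ) ^ k) atTop atTop :=
    tendsto_pow_atTop_atTop_of_one_lt (by norm_num)
  obtain ⟨k, hk1, hk2⟩ := ((h1.eventually_ge_atTop (40 * (|Y0| + 4))).and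
    (h1.eventually_ge_atTop (4 * n))).exists
  obtain ⟨X, l, g1, g2, g3, g4⟩ := iterate hb hz h hX hl k
  refine ⟨X, l, _, g1, g2, g3, ?_, ?_⟩
  · have h2 : (9 / 8 : ℝ) ^ k ≤ (9 / 4) ^ k := by gcongr; norm_num
    have h3 : (4 * n : ℝ) ≤ 4 * X := by
      have : (0:ℝ) ≤ l := by positivity
      linarith
    have h4 : (n:ℝ) ≤ X := by linarith
    exact_mod_cast h4
  · have h2 : (9 / 4 : ℝ) ^ k = 2 ^ k * (9 / 8) ^ k := by
      rw [← mul_pow]; norm_num
    have h3 : (0:ℝ) < 2 ^ k := by positivity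
    have h4 : (0:ℝ) ≤ l := by positivity
    have h5 := le_abs_self Y0
    rw [h2] at g4
    have h6 : (2:ℝ) ^ k * (40 * (|Y0| + 4)) ≤ 2 ^ k * (9 / 8) ^ k := by gcongr
    have h7 : (2:ℝ) ^ k * (Y0 + 4) ≤ 2 ^ k * (|Y0| + 4) := by gcongr
    nlinarith

/-! ### finite products -/

/-- finite cosine product -/
noncomputable def PN (b : ℝ) (N : ℕ) (ξ : ℝ) : ℝ := ∏ n ∈ Finset.range N, Real.cos (ξ * (b⁻¹) ^ n)

lemma PN_neg (b : ℝ) (N : ℕ) (ξ : ℝ) : PN b N (-ξ) = PN b N ξ := by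
  unfold PN
  refine Finset.prod_congr rfl fun n _ => ?_
  rw [neg_mul, Real.cos_neg]

lemma exists_phi (b : ℝ) (hb : 1 < b) : ∃ φ : ℝ → ℝ,
    (∀ ξ, charFun (bernoulliConvolution b⁻¹) ξ = (φ ξ : ℂ)) ∧
    ∀ ξ, Tendsto (fun N => PN b N ξ) atTop (𝓝 (φ ξ)) := by
  have hc : 0 ≤ b⁻¹ := by positivity
  have hc1 : b⁻¹ < 1 := inv_lt_one_of_one_lt₀ hb
  have key : ∀ ξ, Tendsto (fun N => PN b N ξ) atTop
      (𝓝 ((charFun (bernoulliConvolution b⁻¹) ξ).re)) := by
    intro ξ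
    have h1 := charFun_tendsto b⁻¹ hc hc1 ξ
    have h2 := (Complex.continuous_re.tendsto _).comp h1
    exact h2
  refine ⟨fun ξ => (charFun (bernoulliConvolution b⁻¹) ξ).re, fun ξ => ?_, key⟩
  have h1 := charFun_tendsto b⁻¹ hc hc1 ξ
  have h2 := (Complex.continuous_ofReal.tendsto _).comp (key ξ)
  exact tendsto_nhds_unique h1 h2

section est

variable {b : ℝ} {z : ℂ} {p p' : ℝ} {w : ℂ} {L : ℕ} {δ T Y : ℝ}

lemma arg_eq (hb : 0 < b) (m n : ℕ) : Real.pi * p * b ^ m * (b⁻¹) ^ n =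
    Real.pi * p * b ^ ((m:ℤ) - n) := by
  rw [zpow_sub₀ hb.ne', zpow_natCast, zpow_natCast, inv_pow]; ring

lemma sum_range_le (x : ℤ → ℝ) (hx : ∀ n, 0 ≤ x n) (m N : ℕ) :
    ∑ i ∈ Finset.range N, x ((m:ℤ) - i) ≤ ∑ n ∈ Finset.Icc (-(N:ℤ)) m, x n := by
  have h1 : ∑ i ∈ Finset.range N, x ((m:ℤ) - i) =
      ∑ n ∈ (Finset.range N).image (fun i : ℕ => (m:ℤ) - i), x n := by
    rw [Finset.sum_image]
    intro i _ j _ hij
    simp only at hij
    omega
  rw [h1]
  apply Finset.sum_le_sum_of_subset_of_nonneg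
  · intro n hn
    simp only [Finset.mem_image, Finset.mem_range, Finset.mem_Icc] at hn ⊢
    omega
  · intro n _ _
    exact hx n

lemma PN_ne (hD : Dat b z p p' w L δ T Y) (hb : 17 / 10 ≤ b) (m N : ℕ) :
    PN b N (Real.pi * p * b ^ m) ≠ 0 := by
  unfold PN
  rw [Finset.prod_ne_zero_iff]
  intro i _
  rw [arg_eq (by linarith)]
  exact hD.nz _

lemma PN_lower (hD : Dat b z p p' w L δ T Y) (hb : 17 / 10 ≤ b) (m N : ℕ) :
    Real.exp (-(Y + m * δ ^ 2)) ≤ |PN b N (Real.pi * p * b ^ m)| := by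
  have hb0 : 0 < b := by linarith
  rw [← Real.le_log_iff_exp_le (abs_pos.2 (PN_ne hD hb m N))]
  unfold PN
  rw [Finset.abs_prod, Real.log_prod]
  · have h1 := sum_range_le (ps b p) (ps_nonneg b p) m N
    have h2 := hD.hY N m
    have h3 : ∑ i ∈ Finset.range N, Real.log |Real.cos (Real.pi * p * b ^ m * b⁻¹ ^ i)| =
        -∑ i ∈ Finset.range N, ps b p ((m:ℤ) - i) := by
      rw [← Finset.sum_neg_distrib]
      refine Finset.sum_congr rfl fun i _ => ?_
      unfold ps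
      rw [arg_eq hb0, neg_neg]
    rw [h3]
    linarith
  · intro i _
    rw [arg_eq hb0]
    exact abs_ne_zero.2 (hD.nz _)

lemma PN_far (hD : Dat b z p p' w L δ T Y) (hb : 17 / 10 ≤ b) (hz : ‖z‖ = 1) (j g : ℕ)
    (hj : 2 * L + 2 * g ≤ j) (hg : (b ^ g)⁻¹ ≤ δ) (l N : ℕ) (S : ℝ)
    (hS : 3 * δ * (T + ((l + j : ℕ) : ℝ) * δ) ≤ S) (hS1 : S ≤ 1) :
    |PN b N (Real.pi * p * b ^ (l + j) - Real.pi * p * b ^ l) -
      PN b N (Real.pi * p * b ^ (l + j)) * PN b N (Real.pi * p * b ^ l)| ≤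
      |PN b N (Real.pi * p * b ^ (l + j))| * |PN b N (Real.pi * p * b ^ l)| * (2 * S) := by
  have hb0 : 0 < b := by linarith
  have h1 : PN b N (Real.pi * p * b ^ (l + j) - Real.pi * p * b ^ l) =
      PN b N (Real.pi * p * b ^ (l + j)) * PN b N (Real.pi * p * b ^ l) *
      ∏ i ∈ Finset.range N, (1 + Real.tan (Real.pi * p * b ^ (((l + j : ℕ) : ℤ) - i)) *
        Real.tan (Real.pi * p * b ^ ((l : ℤ) - i))) := by
    unfold PN
    rw [← Finset.prod_mul_distrib, ← Finset.prod_mul_distrib]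
    refine Finset.prod_congr rfl fun i _ => ?_
    rw [sub_mul, arg_eq hb0, arg_eq hb0, cos_sub_eq (hD.nz _) (hD.nz _)]
  rw [h1]
  set Q := ∏ i ∈ Finset.range N, (1 + Real.tan (Real.pi * p * b ^ (((l + j : ℕ) : ℤ) - i)) *
        Real.tan (Real.pi * p * b ^ ((l : ℤ) - i))) with hQ
  have h2 : |Q - 1| ≤ 2 * S := by
    have h3 := Finset.norm_prod_one_add_sub_one_le (Finset.range N)
      (fun i : ℕ => Real.tan (Real.pi * p * b ^ (((l + j : ℕ) : ℤ) - i)) *
        Real.tan (Real.pi * p * b ^ ((l : ℤ) - i)))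
    rw [← hQ, Real.norm_eq_abs] at h3
    have h4 : ∑ i ∈ Finset.range N, ‖Real.tan (Real.pi * p * b ^ (((l + j : ℕ) : ℤ) - i)) *
        Real.tan (Real.pi * p * b ^ ((l : ℤ) - i))‖ ≤ S := by
      refine le_trans ?_ hS
      refine le_trans ?_ (hD.overlap_sum hb hz j g hj hg N l)
      have h5 := sum_range_le (fun n => tt b p (n + j) * tt b p n)
        (fun n => mul_nonneg (tt_nonneg _ _ _) (tt_nonneg _ _ _)) l N
      refine le_trans (le_of_eq ?_) h5
      refine Finset.sum_congr rfl fun i _ => ?_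
      unfold tt
      rw [Real.norm_eq_abs, abs_mul]
      congr 5
      push_cast; ring
    have h5 : 0 ≤ S := le_trans (Finset.sum_nonneg fun i _ => norm_nonneg _) h4
    have h6 : Real.exp (∑ i ∈ Finset.range N, ‖Real.tan (Real.pi * p * b ^ (((l + j : ℕ) : ℤ) - i)) *
        Real.tan (Real.pi * p * b ^ ((l : ℤ) - i))‖) ≤ Real.exp S := Real.exp_le_exp.2 h4
    have h7 : Real.exp S - 1 ≤ 2 * S := by
      have h8 := Real.abs_exp_sub_one_le (x := S) (by rw [abs_of_nonneg h5]; exact hS1)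
      rw [abs_of_nonneg h5] at h8
      exact (le_abs_self _).trans h8
    linarith
  calc |PN b N (Real.pi * p * b ^ (l + j)) * PN b N (Real.pi * p * b ^ l) * Q -
      PN b N (Real.pi * p * b ^ (l + j)) * PN b N (Real.pi * p * b ^ l)|
      = |PN b N (Real.pi * p * b ^ (l + j))| * |PN b N (Real.pi * p * b ^ l)| * |Q - 1| := by
        rw [← abs_mul, ← abs_mul]; congr 1; ring
    _ ≤ _ := by gcongr

end est

lemma double_sum_bound (M E : ℕ) (x : ℕ → ℕ → ℝ) (c1 c2 : ℝ) (h0 : 0 ≤ c1) (h0' : 0 ≤ c2)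
    (hnear : ∀ m < M, ∀ k < M, x m k ≤ c1)
    (hfar : ∀ m < M, ∀ k < M, (m + E ≤ k ∨ k + E ≤ m) → x m k ≤ c2) :
    ∑ m ∈ Finset.range M, ∑ k ∈ Finset.range M, x m k ≤ M * (2 * E * c1 + M * c2) := by
  have h1 : ∀ m ∈ Finset.range M, ∑ k ∈ Finset.range M, x m k ≤ 2 * E * c1 + M * c2 := by
    intro m hm
    rw [Finset.mem_range] at hm
    have h2 : ∑ k ∈ Finset.range M, x m k ≤
        ∑ k ∈ Finset.range M, ((if (k < m + E ∧ m < k + E) then c1 else 0) + c2) := by
      apply Finset.sum_le_sum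
      intro k hk
      rw [Finset.mem_range] at hk
      split_ifs with h
      · have := hnear m hm k hk
        linarith
      · have := hfar m hm k hk (by omega)
        linarith
    refine h2.trans ?_
    rw [Finset.sum_add_distrib, Finset.sum_const, nsmul_eq_mul, Finset.card_range,
      ← Finset.sum_filter, Finset.sum_const, nsmul_eq_mul]
    have h3 : ((Finset.range M).filter (fun k => k < m + E ∧ m < k + E)).card ≤ 2 * E := by
      calc ((Finset.range M).filter (fun k => k < m + E ∧ m < k + E)).card ≤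
          (Finset.Ico (m + 1 - E) (m + E)).card := by
            apply Finset.card_le_card
            intro k hk
            simp only [Finset.mem_filter, Finset.mem_range, Finset.mem_Ico] at hk ⊢
            omega
        _ ≤ 2 * E := by rw [Nat.card_Ico]; omega
    have h4 : (((Finset.range M).filter (fun k => k < m + E ∧ m < k + E)).card : ℝ) ≤ 2 * E := by
      exact_mod_cast h3
    gcongr
  refine (Finset.sum_le_sum h1).trans ?_
  rw [Finset.sum_const, nsmul_eq_mul, Finset.card_range]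

lemma gap_lower {b p : ℝ} (hb : 17 / 10 ≤ b) (hp : 1 ≤ p) (m k : ℕ) (h : k ≤ m) :
    2 * ((m:ℝ) - k) ≤ Real.pi * p * b ^ m - Real.pi * p * b ^ k := by
  obtain ⟨d, rfl⟩ : ∃ d, m = k + d := ⟨m - k, by omega⟩
  have hpi := Real.pi_gt_three
  have h1 : (1:ℝ) + d * (b - 1) ≤ b ^ d := by
    have := one_add_mul_le_pow (a := b - 1) (by linarith) d
    simpa using this
  have h2 : (1:ℝ) ≤ b ^ k := one_le_pow₀ (by linarith)
  have h3 : (0:ℝ) ≤ d := by positivity
  rw [pow_add]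
  have h4 : Real.pi * p * (b ^ k * b ^ d) - Real.pi * p * b ^ k =
      Real.pi * p * b ^ k * (b ^ d - 1) := by ring
  rw [h4]
  push_cast
  have h5 : (d:ℝ) * (7 / 10) ≤ b ^ d - 1 := by nlinarith
  have h6 : (3:ℝ) ≤ Real.pi * p * b ^ k := by
    calc (3:ℝ) ≤ Real.pi := hpi.le
      _ = Real.pi * 1 * 1 := by ring
      _ ≤ Real.pi * p * b ^ k := by gcongr
  nlinarith [mul_le_mul h6 h5 (by positivity) (by linarith)]

lemma norm_charFun_gauss (t : ℝ) : ‖charFun (gaussianReal 0 1) t‖ = Real.exp (-(t ^ 2 / 2)) := by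
  rw [charFun_gaussianReal]
  have : (t * (0:ℝ) * Complex.I - ((1:NNReal):ℝ) * t ^ 2 / 2 : ℂ) = ((-(t ^ 2 / 2) : ℝ) : ℂ) := by
    push_cast; ring
  rw [this, Complex.norm_exp_ofReal]

lemma exp_neg_le_two_pow (n : ℕ) : Real.exp (-(n:ℝ)) ≤ ((2:ℝ) ^ n)⁻¹ := by
  rw [Real.exp_neg]
  have h1 : (2:ℝ) ^ n ≤ Real.exp n := by
    have h2 : (2:ℝ) ≤ Real.exp 1 := by
      have := Real.add_one_le_exp 1
      linarith
    calc (2:ℝ) ^ n ≤ (Real.exp 1) ^ n := by gcongr
      _ = Real.exp n := by rw [← Real.exp_nat_mul]; simp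
  gcongr

lemma two_pow_l_exp (X l : ℕ) (Y : ℝ) (hl : 10 * l ≤ 7 * X) (hY : 10 * Y ≤ X) :
    (2:ℝ) ^ l * Real.exp (2 * (Y + 1)) ≤ 8 * 2 ^ X := by
  have he : Real.exp 2 ≤ 8 := by
    have h1 := Real.exp_one_lt_d9
    have h2 : Real.exp 2 = Real.exp 1 * Real.exp 1 := by rw [← Real.exp_add]; norm_num
    rw [h2]
    nlinarith [Real.exp_pos 1]
  have h1 : Real.exp (2 * (Y + 1)) = Real.exp (2 * Y) * Real.exp 2 := by
    rw [← Real.exp_add]; congr 1; ring
  have h2 : (2:ℝ) ^ l * Real.exp (2 * Y) ≤ 2 ^ X := by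
    apply le_of_pow_le_pow_left₀ (n := 10) (by norm_num) (by positivity)
    rw [mul_pow, ← pow_mul, ← Real.exp_nat_mul, ← pow_mul]
    have h3 : Real.exp ((10:ℕ) * (2 * Y)) ≤ 8 ^ X := by
      calc Real.exp ((10:ℕ) * (2 * Y)) ≤ Real.exp (X * 2) := by
            apply Real.exp_le_exp.2; push_cast; linarith
        _ = (Real.exp 2) ^ X := by rw [Real.exp_nat_mul]
        _ ≤ 8 ^ X := by gcongr
    calc (2:ℝ) ^ (l * 10) * Real.exp ((10:ℕ) * (2 * Y)) ≤ 2 ^ (7 * X) * 8 ^ X :=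
          mul_le_mul (pow_le_pow_right₀ (by norm_num) (by omega)) h3 (Real.exp_pos _).le
            (by positivity)
      _ = 2 ^ (X * 10) := by
        rw [show (8:ℝ) = 2 ^ 3 by norm_num, ← pow_mul, ← pow_add]
        congr 1; ring
  rw [h1]
  calc (2:ℝ) ^ l * (Real.exp (2 * Y) * Real.exp 2) = (2 ^ l * Real.exp (2 * Y)) * Real.exp 2 := by
        ring
    _ ≤ 2 ^ X * 8 := by gcongr
    _ = 8 * 2 ^ X := by ring

theorem final_test {b : ℝ} {z : ℂ} {X l : ℕ} {Y : ℝ} (hb : 17 / 10 ≤ b) (hz : ‖z‖ = 1)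
    (h : State b z X l Y) (hX : 38 ≤ X) (hl : 10 * l ≤ 7 * X) (hY : 10 * Y ≤ X) :
    ∃ F : ℝ → ℂ, Continuous F ∧ (∃ C, ∀ x, ‖F x‖ ≤ C) ∧
      ∫ x, ‖F x - 1‖ ^ 2 ∂(bernoulliConvolution b⁻¹) ≤ 44 / 2 ^ (X / 2) ∧
      ∫ x, ‖F x‖ ^ 2 ∂(gaussianReal 0 1) ≤ 44 / 2 ^ (X / 2) := by
  obtain ⟨p, p', w, L, T, hD, hT, hL⟩ := h
  have hb1 : 1 < b := by linarith
  have hb0 : 0 < b := by linarith
  have hprob : IsProbabilityMeasure (bernoulliConvolution b⁻¹) :=
    isProb_bernoulliConvolution _ (by positivity) (inv_lt_one_of_one_lt₀ hb1)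
  obtain ⟨φ, hφ1, hφ2⟩ := exists_phi b hb1
  set M : ℕ := 2 ^ (X + X / 2) with hM
  set E : ℕ := 2 ^ l with hE
  set B : ℝ := 2 ^ (X / 2) with hB
  set A' : ℝ := 2 ^ X with hA'
  set A : ℕ → ℝ := fun m => Real.pi * p * b ^ m with hA
  set R : ℝ := Real.exp (Y + 1) with hR
  have hB0 : 0 < B := by positivity
  have hA'0 : 0 < A' := by positivity
  have hM0 : (0:ℝ) < M := by rw [hM]; positivity
  have hR0 : 0 < R := Real.exp_pos _
  have hMR : (M:ℝ) = A' * B := by rw [hM, hA', hB]; push_cast; rw [pow_add]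
  have hBA : B * B ≤ A' := by
    rw [hB, hA', ← pow_add]
    exact pow_le_pow_right₀ (by norm_num) (by omega)
  have hB19 : 524288 ≤ B := by
    calc (524288:ℝ) = 2 ^ 19 := by norm_num
      _ ≤ B := by rw [hB]; exact pow_le_pow_right₀ (by norm_num) (by omega)
  -- lower bound
  have hlow : ∀ m < M, R⁻¹ ≤ |φ (A m)| := by
    intro m hm
    have h1 : Tendsto (fun N => |PN b N (A m)|) atTop (𝓝 |φ (A m)|) :=
      (hφ2 (A m)).abs
    refine ge_of_tendsto' h1 fun N => ?_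
    refine le_trans ?_ (PN_lower hD hb m N)
    rw [hR, ← Real.exp_neg]
    apply Real.exp_le_exp.2
    have h2 : (m:ℝ) * (A'⁻¹) ^ 2 ≤ 1 := by
      have h3 : (m:ℝ) ≤ A' * B := by
        rw [← hMR]; exact_mod_cast hm.le
      calc (m:ℝ) * (A'⁻¹) ^ 2 ≤ (A' * B) * (A'⁻¹) ^ 2 := by gcongr
        _ = B / A' := by field_simp
        _ ≤ 1 := by
          rw [div_le_one hA'0]
          nlinarith
    linarith
  have hne : ∀ m < M, φ (A m) ≠ 0 := by
    intro m hm h0
    have := hlow m hm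
    rw [h0, abs_zero] at this
    have h2 : 0 < R⁻¹ := by positivity
    linarith
  -- far pairs
  have hfar0 : ∀ m < M, ∀ k < M, k + E ≤ m →
      |φ (A m - A k) - φ (A m) * φ (A k)| ≤ |φ (A m)| * |φ (A k)| * (12 / B) := by
    intro m hm k hk hmk
    obtain ⟨j, rfl⟩ : ∃ j, m = k + j := ⟨m - k, by omega⟩
    have hj : 2 * L + 2 * (2 * X) ≤ j := by omega
    have h1 : Tendsto (fun N => |PN b N (A (k + j) - A k) - PN b N (A (k + j)) * PN b N (A k)|)
        atTop (𝓝 |φ (A (k + j) - A k) - φ (A (k + j)) * φ (A k)|) :=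
      ((hφ2 _).sub ((hφ2 _).mul (hφ2 _))).abs
    have h2 : Tendsto (fun N => |PN b N (A (k + j))| * |PN b N (A k)| * (2 * (6 / B)))
        atTop (𝓝 (|φ (A (k + j))| * |φ (A k)| * (2 * (6 / B)))) :=
      ((hφ2 _).abs.mul (hφ2 _).abs).mul_const _
    have h3 : 3 * A'⁻¹ * (T + ((k + j : ℕ) : ℝ) * A'⁻¹) ≤ 6 / B := by
      have h4 : ((k + j : ℕ) : ℝ) * A'⁻¹ ≤ B := by
        have h5 : ((k + j : ℕ) : ℝ) ≤ A' * B := by
          rw [← hMR]; exact_mod_cast hm.le
        calc ((k + j : ℕ) : ℝ) * A'⁻¹ ≤ (A' * B) * A'⁻¹ := by gcongr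
          _ = B := by field_simp
      calc 3 * A'⁻¹ * (T + ((k + j : ℕ) : ℝ) * A'⁻¹) ≤ 3 * A'⁻¹ * (B + B) := by gcongr
        _ = 6 * B / A' := by field_simp; ring
        _ ≤ 6 / B := by
          rw [div_le_div_iff₀ hA'0 hB0]
          nlinarith
    have h6 : 6 / B ≤ 1 := by
      rw [div_le_one hB0]; linarith
    have h7 := le_of_tendsto_of_tendsto' h1 h2 fun N =>
      PN_far hD hb hz j (2 * X) hj (pow_half_le b hb X) k N (6 / B) h3 h6
    refine h7.trans (le_of_eq ?_)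
    ring
  have heven : ∀ ξ, φ (-ξ) = φ ξ := by
    intro ξ
    refine tendsto_nhds_unique (hφ2 (-ξ)) ?_
    simpa only [PN_neg] using hφ2 ξ
  have hfar : ∀ m < M, ∀ k < M, (m + E ≤ k ∨ k + E ≤ m) →
      |φ (A m - A k) - φ (A m) * φ (A k)| ≤ |φ (A m)| * |φ (A k)| * (12 / B) := by
    intro m hm k hk hmk
    rcases hmk with h | h
    · have h1 := hfar0 k hk m hm h
      rw [show A m - A k = -(A k - A m) by ring, heven, mul_comm (φ (A m)), mul_comm |φ (A m)|]
      exact h1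
    · exact hfar0 m hm k hk h
  have hφle : ∀ ξ, |φ ξ| ≤ 1 := by
    intro ξ
    have h1 := norm_charFun_le_one (μ := bernoulliConvolution b⁻¹) ξ
    rw [hφ1, Complex.norm_real] at h1
    exact h1
  -- coefficients
  set d : ℕ → ℝ := fun m => (M * φ (A m))⁻¹ with hd
  have hdle : ∀ m < M, |d m| ≤ R / M := by
    intro m hm
    rw [hd]
    simp only
    rw [abs_inv, abs_mul, abs_of_pos hM0, mul_inv, div_eq_inv_mul]
    gcongr
    rw [inv_le_comm₀ (abs_pos.2 (hne m hm)) hR0]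
    exact hlow m hm
  have hdφ : ∀ m < M, |d m| * |φ (A m)| = 1 / M := by
    intro m hm
    rw [hd]
    simp only
    rw [abs_inv, abs_mul, abs_of_pos hM0]
    have := abs_pos.2 (hne m hm)
    field_simp
  set F : ℝ → ℂ := fun x => ∑ m ∈ Finset.range M, (d m : ℂ) * ee (A m) x with hF
  have hF1 : ∀ x, F x - 1 = ∑ m ∈ Finset.range M, (d m : ℂ) *
      (ee (A m) x - charFun (bernoulliConvolution b⁻¹) (A m)) := by
    intro x
    simp_rw [mul_sub]
    rw [Finset.sum_sub_distrib]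
    congr 1
    have h1 : ∀ m ∈ Finset.range M, (d m : ℂ) * charFun (bernoulliConvolution b⁻¹) (A m) =
        ((1 / M : ℝ) : ℂ) := by
      intro m hm
      rw [Finset.mem_range] at hm
      rw [hφ1, ← Complex.ofReal_mul]
      congr 1
      rw [hd]
      simp only
      have := hne m hm
      field_simp
    rw [Finset.sum_congr rfl h1, Finset.sum_const, Finset.card_range, nsmul_eq_mul]
    push_cast
    have : (M:ℂ) ≠ 0 := by exact_mod_cast hM0.ne'
    field_simp
  have hER : (E:ℝ) * (R * R) ≤ 8 * A' := by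
    have h1 := two_pow_l_exp X l Y hl hY
    have h2 : R * R = Real.exp (2 * (Y + 1)) := by
      rw [hR, ← Real.exp_add]; congr 1; ring
    rw [h2, hE]; push_cast; exact h1
  have hEpos : (1:ℝ) ≤ E := by
    rw [hE]; exact_mod_cast Nat.one_le_two_pow
  refine ⟨F, ?_, ⟨∑ m ∈ Finset.range M, |d m|, fun x => ?_⟩, ?_, ?_⟩
  · refine continuous_finsetSum _ fun m _ => ?_
    exact continuous_const.mul (continuous_ee _)
  · refine (norm_sum_le _ _).trans (Finset.sum_le_sum fun m _ => ?_)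
    rw [norm_mul, norm_ee, mul_one, Complex.norm_real, Real.norm_eq_abs]
  · simp_rw [hF1]
    refine (second_a (bernoulliConvolution b⁻¹) (Finset.range M) A d).trans ?_
    refine (double_sum_bound M E _ (R / M * (R / M) * 2) (1 / M * (1 / M) * (12 / B))
      (by positivity) (by positivity) ?_ ?_).trans ?_
    · intro m hm k hk
      have h1 := hdle m hm
      have h2 := hdle k hk
      have h3 : ‖charFun (bernoulliConvolution b⁻¹) (A m - A k) -
          charFun (bernoulliConvolution b⁻¹) (A m) *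
          conj (charFun (bernoulliConvolution b⁻¹) (A k))‖ ≤ 2 := by
        rw [hφ1, hφ1, hφ1, Complex.conj_ofReal, ← Complex.ofReal_mul, ← Complex.ofReal_sub,
          Complex.norm_real, Real.norm_eq_abs]
        refine (abs_sub _ _).trans ?_
        rw [abs_mul]
        have g1 := hφle (A m - A k)
        have g2 := hφle (A m)
        have g3 := hφle (A k)
        nlinarith [abs_nonneg (φ (A m)), abs_nonneg (φ (A k))]
      gcongr
    · intro m hm k hk hmk
      have h3 : ‖charFun (bernoulliConvolution b⁻¹) (A m - A k) -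
          charFun (bernoulliConvolution b⁻¹) (A m) *
          conj (charFun (bernoulliConvolution b⁻¹) (A k))‖ ≤ |φ (A m)| * |φ (A k)| * (12 / B) := by
        rw [hφ1, hφ1, hφ1, Complex.conj_ofReal, ← Complex.ofReal_mul, ← Complex.ofReal_sub,
          Complex.norm_real, Real.norm_eq_abs]
        exact hfar m hm k hk hmk
      calc |d m| * |d k| * ‖charFun (bernoulliConvolution b⁻¹) (A m - A k) -
          charFun (bernoulliConvolution b⁻¹) (A m) *
          conj (charFun (bernoulliConvolution b⁻¹) (A k))‖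
          ≤ |d m| * |d k| * (|φ (A m)| * |φ (A k)| * (12 / B)) := by gcongr
        _ = (|d m| * |φ (A m)|) * (|d k| * |φ (A k)|) * (12 / B) := by ring
        _ = 1 / M * (1 / M) * (12 / B) := by rw [hdφ m hm, hdφ k hk]
    · have h1 : (M:ℝ) * (2 * E * (R / M * (R / M) * 2) + M * (1 / M * (1 / M) * (12 / B))) =
          4 * (E * (R * R)) / M + 12 / B := by
        field_simp
        ring
      rw [h1, hMR]
      calc 4 * (E * (R * R)) / (A' * B) + 12 / B ≤ 4 * (8 * A') / (A' * B) + 12 / B := by gcongr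
        _ = 44 / B := by field_simp; norm_num
  · refine (second_b (gaussianReal 0 1) (Finset.range M) A d).trans ?_
    refine (double_sum_bound M E _ (R / M * (R / M) * 1) (R / M * (R / M) * (A' * A')⁻¹)
      (by positivity) (by positivity) ?_ ?_).trans ?_
    · intro m hm k hk
      have h1 := hdle m hm
      have h2 := hdle k hk
      have h3 := norm_charFun_le_one (μ := gaussianReal 0 1) (A m - A k)
      gcongr
    · intro m hm k hk hmk
      have h1 := hdle m hm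
      have h2 := hdle k hk
      have h3 : ‖charFun (gaussianReal 0 1) (A m - A k)‖ ≤ (A' * A')⁻¹ := by
        rw [norm_charFun_gauss]
        have h4 : (2 * (X:ℝ)) ≤ (A m - A k) ^ 2 / 2 := by
          have hEX : (4 * (X:ℝ)) ≤ E := by
            rw [hE]
            exact_mod_cast (by omega : 4 * X ≤ 2 ^ l)
          have hX' : (38:ℝ) ≤ X := by exact_mod_cast hX
          rcases hmk with h | h
          · have g1 := gap_lower hb hD.hp1 k m (by omega)
            have g2 : (m:ℝ) + E ≤ k := by exact_mod_cast h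
            have g3 : 2 * (E:ℝ) ≤ A k - A m := by
              simp only [hA]; linarith
            nlinarith
          · have g1 := gap_lower hb hD.hp1 m k (by omega)
            have g2 : (k:ℝ) + E ≤ m := by exact_mod_cast h
            have g3 : 2 * (E:ℝ) ≤ A m - A k := by
              simp only [hA]; linarith
            nlinarith
        calc Real.exp (-((A m - A k) ^ 2 / 2)) ≤ Real.exp (-((2 * X : ℕ) : ℝ)) := by
              apply Real.exp_le_exp.2; push_cast; linarith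
          _ ≤ ((2:ℝ) ^ (2 * X))⁻¹ := exp_neg_le_two_pow _
          _ = (A' * A')⁻¹ := by rw [hA', ← pow_add]; congr 2; ring
      gcongr
    · have h1 : (M:ℝ) * (2 * E * (R / M * (R / M) * 1) + M * (R / M * (R / M) * (A' * A')⁻¹)) =
          2 * (E * (R * R)) / M + (R * R) * (A' * A')⁻¹ := by
        field_simp
      rw [h1, hMR]
      have h2 : R * R ≤ 8 * A' := by nlinarith [mul_pos hR0 hR0]
      calc 2 * (E * (R * R)) / (A' * B) + (R * R) * (A' * A')⁻¹ ≤
          2 * (8 * A') / (A' * B) + (8 * A') * (A' * A')⁻¹ := by gcongr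
        _ = 16 / B + 8 / A' := by field_simp; ring
        _ ≤ 16 / B + 8 / B := by
          have hBA1 : B ≤ A' := le_trans (le_mul_of_one_le_left hB0.le (by linarith)) hBA
          gcongr
        _ ≤ 44 / B := by
          rw [← add_div]
          gcongr
          norm_num

theorem singular_of_state {b : ℝ} {z : ℂ} {X0 l0 : ℕ} {Y0 : ℝ} (hb : 17 / 10 ≤ b) (hz : ‖z‖ = 1)
    (h : State b z X0 l0 Y0) (hX : 38 ≤ X0) (hl : 10 * l0 ≤ 7 * X0) :
    (bernoulliConvolution b⁻¹).MutuallySingular (volume : Measure ℝ) := by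
  have hb1 : 1 < b := by linarith
  have hprob : IsProbabilityMeasure (bernoulliConvolution b⁻¹) :=
    isProb_bernoulliConvolution _ (by positivity) (inv_lt_one_of_one_lt₀ hb1)
  have h1 : (bernoulliConvolution b⁻¹).MutuallySingular (gaussianReal 0 1) := by
    apply ms_of_tests
    intro ε hε
    have h2 : Tendsto (fun k : ℕ => (2:ℝ) ^ k) atTop atTop :=
      tendsto_pow_atTop_atTop_of_one_lt (by norm_num)
    obtain ⟨k, hk⟩ := (h2.eventually_ge_atTop (44 / ε)).exists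
    obtain ⟨X, l, Y, g1, g2, g3, g4, g5⟩ := exists_state hb hz h hX hl (2 * k + 2)
    obtain ⟨F, hF1, hF2, hF3, hF4⟩ := final_test hb hz g1 g2 g3 g5
    have h5 : 44 / (2:ℝ) ^ (X / 2) ≤ ε := by
      rw [div_le_iff₀ (by positivity)]
      have h6 : (2:ℝ) ^ k ≤ 2 ^ (X / 2) := pow_le_pow_right₀ (by norm_num) (by omega)
      rw [div_le_iff₀ hε] at hk
      nlinarith
    exact ⟨F, hF1, hF2, hF3.trans h5, hF4.trans h5⟩
  exact h1.mono_ac Measure.AbsolutelyContinuous.rfl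
    (gaussianReal_absolutelyContinuous' 0 (by norm_num))

end Crest.Agent.S0137
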