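import Crest.Agent.S0137.Base

set_option autoImplicit false
open Filter Topology

namespace Crest.Agent.S0137

lemma g_bounds {γ s c gl gh : ℝ} (hγ : 2 < γ) (hs : s ≤ 2) (hq : γ ^ 2 = s * γ - c)
    (_hgl : 2 < gl) (hgh : 2 < gh) (e1 : gl ^ 2 ≤ s * gl - c) (e2 : s * gh - c ≤ gh ^ 2) :
    gl ≤ γ ∧ γ ≤ gh := by
  constructor
  · by_contra h
    push Not at h
    nlinarith [mul_pos (sub_pos.2 h) (by linarith : 0 < gl + γ - s)]
  · by_contra h
    push Not at h
    nlinarith [mul_pos (sub_pos.2 h) (by linarith : 0 < gh + γ - s)]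

lemma b_bounds {b γ gl gh bl bh : ℝ} (hb : 1 < b) (h : b + b⁻¹ = γ) (h1 : gl ≤ γ) (h2 : γ ≤ gh)
    (hbl : 1 < bl) (hbh : 1 < bh) (e1 : bl ^ 2 + 1 ≤ gl * bl) (e2 : gh * bh ≤ bh ^ 2 + 1) :
    bl ≤ b ∧ b ≤ bh := by
  have hb0 : 0 < b := by linarith
  have h3 : b ^ 2 + 1 = γ * b := by rw [← h]; field_simp
  constructor
  · by_contra h'
    push Not at h'
    have g1 : bl ^ 2 + 1 ≤ γ * bl := e1.trans (by gcongr)
    have g2 : b * (bl ^ 2 + 1) ≤ b * (γ * bl) := by gcongr
    have g3 : b * (γ * bl) = (b ^ 2 + 1) * bl := by rw [h3]; ring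
    have g4 : 0 < b * bl - 1 := by nlinarith
    nlinarith [mul_pos (sub_pos.2 h') g4]
  · by_contra h'
    push Not at h'
    have g1 : γ * bh ≤ bh ^ 2 + 1 := le_trans (by gcongr) e2
    have g2 : b * (γ * bh) ≤ b * (bh ^ 2 + 1) := by gcongr
    have g3 : b * (γ * bh) = (b ^ 2 + 1) * bh := by rw [h3]; ring
    have g4 : 0 < b * bh - 1 := by nlinarith
    nlinarith [mul_pos (sub_pos.2 h') g4]

/-- Lucas type sequence -/
def Vs (t : ℤ) : ℕ → ℤ
  | 0 => 2
  | 1 => t
  | (n + 2) => t * Vs t (n + 1) + Vs t n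

lemma Vs_spec {x y : ℝ} {t : ℤ} (h1 : x + y = t) (h2 : x * y = -1) (n : ℕ) :
    x ^ n + y ^ n = Vs t n ∧ x ^ (n + 1) + y ^ (n + 1) = Vs t (n + 1) := by
  induction n with
  | zero =>
    constructor
    · simp [Vs]; norm_num
    · simp [Vs, h1]
  | succ n ih =>
    refine ⟨ih.2, ?_⟩
    have h3 : x ^ (n + 1 + 1) + y ^ (n + 1 + 1) =
        (x + y) * (x ^ (n + 1) + y ^ (n + 1)) - (x * y) * (x ^ n + y ^ n) := by ring
    rw [h3, h1, h2, ih.1, ih.2]
    simp only [Vs]
    push_cast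
    ring

theorem state1 {b γ γ' : ℝ} {z : ℂ} (hb : 1 < b) (hγ : b + b⁻¹ = γ) (hz : ‖z‖ = 1)
    (hz2 : 2 * z.re = γ') (hs : γ + γ' = 1) (hc : γ * γ' = -3) (hγ2 : 2 < γ) :
    17 / 10 ≤ b ∧ ∃ Y0 : ℝ, State b z 38 9 Y0 := by
  have hq : γ ^ 2 = 1 * γ - (-3) := by
    have : γ' = 1 - γ := by linarith
    rw [this] at hc; nlinarith
  obtain ⟨g1, g2⟩ := g_bounds (gl := 23027756377319946465596106337352479 / 10 ^ 34)
    (gh := 23027756377319946465596106337352480 / 10 ^ 34) hγ2 (by norm_num) hq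
    (by norm_num) (by norm_num) (by norm_num) (by norm_num)
  obtain ⟨b1, b2⟩ := b_bounds (bl := 1722083805739042245027069212152 / 1000000000000000000000000000000)
    (bh := 1722083805739042245027069212155 / 1000000000000000000000000000000) hb hγ g1 g2 (by norm_num) (by norm_num)
    (by norm_num) (by norm_num)
  have hb17 : 17 / 10 ≤ b := le_trans (by norm_num) b1
  refine ⟨hb17, ?_⟩
  have hV := (Vs_spec (x := γ + 1) (y := γ' + 1) (t := 3) (by push_cast; linarith)
    (by linear_combination hc + hs) 25).1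
  have hV25 : Vs 3 25 = 9375119479443 := by decide +kernel
  rw [hV25] at hV
  have hy : |γ' + 1| ≤ 30278 / 100000 := by
    have g1' : (2.30277:ℝ) ≤ γ := le_trans (by norm_num) g1
    have g2' : γ ≤ 2.30278 := g2.trans (by norm_num)
    rw [abs_le]; constructor <;> linarith
  have hyr : |γ' + 1| ^ 25 ≤ (30278 / 100000) ^ 25 := by gcongr
  have hP : |2 * (γ + (1:ℤ)) ^ 25 - (18750238958886:ℕ)| ≤ 1 / 1000 := by
    have h1 : 2 * (γ + (1:ℤ)) ^ 25 - (18750238958886:ℕ) = -(2 * (γ' + 1) ^ 25) := by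
      push_cast
      push_cast at hV
      linear_combination 2 * hV
    rw [h1, abs_neg, abs_mul, abs_pow, abs_of_pos (by norm_num : (0:ℝ) < 2)]
    calc 2 * |γ' + 1| ^ 25 ≤ 2 * (30278 / 100000) ^ 25 := by gcongr
      _ ≤ 1 / 1000 := by norm_num
  have hpub : 2 * (γ + (1:ℤ)) ^ 25 ≤ 18750238958887 := by
    have := (abs_le.1 hP).2
    push_cast at this ⊢
    linarith
  have hplb : 1 ≤ 2 * (γ + (1:ℤ)) ^ 25 := by
    have := (abs_le.1 hP).1
    push_cast at this ⊢
    linarith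
  refine base_state (s := 1) (c := -3) (e := 1) 25 18750238958886 1722083805739042245027069212152
    1722083805739042245027069212155 1000000000000000000000000000000 hb17 hγ hz hz2 (by push_cast; exact hs)
    (by push_cast; exact hc) hP hplb ?_ ?_ (by positivity) ?_ ?_ (by norm_num) ?_
  · have hpi := Real.pi_lt_d2
    calc 2 * Real.pi * (2 * (γ + (1:ℤ)) ^ 25) ≤ 2 * 3.15 * 18750238958887 :=
          mul_le_mul (by linarith) hpub (by linarith) (by norm_num)
      _ ≤ (1722083805739042245027069212152 / 1000000000000000000000000000000) ^ 60 := by norm_num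
      _ ≤ b ^ 60 := pow_le_pow_left₀ (by norm_num) b1 _
  · have hpi := Real.pi_lt_d2
    push_cast
    calc 8 * Real.pi * |γ' + 1| ^ 25 ≤ 8 * 3.15 * (30278 / 100000) ^ 25 :=
          mul_le_mul (by linarith) hyr (pow_nonneg (abs_nonneg _) _) (by norm_num)
      _ ≤ (2 ^ 38)⁻¹ := by norm_num
  · push_cast
    rw [div_le_iff₀ (by positivity)] at b1
    exact b1
  · push_cast
    rw [le_div_iff₀ (by positivity)] at b2
    exact b2
  · decide +kernel

theorem state2 {b γ γ' : ℝ} {z : ℂ} (hb : 1 < b) (hγ : b + b⁻¹ = γ) (hz : ‖z‖ = 1)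
    (hz2 : 2 * z.re = γ') (hs : γ + γ' = 2) (hc : γ * γ' = -1) (hγ2 : 2 < γ) :
    17 / 10 ≤ b ∧ ∃ Y0 : ℝ, State b z 38 9 Y0 := by
  have hq : γ ^ 2 = 2 * γ - (-1) := by
    have : γ' = 2 - γ := by linarith
    rw [this] at hc; nlinarith
  obtain ⟨g1, g2⟩ := g_bounds (gl := 24142135623730950488016887242096980 / 10 ^ 34)
    (gh := 24142135623730950488016887242096981 / 10 ^ 34) hγ2 (by norm_num) hq
    (by norm_num) (by norm_num) (by norm_num) (by norm_num)
  obtain ⟨b1, b2⟩ := b_bounds (bl := 1883203505913525864168947465361 / 1000000000000000000000000000000)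
    (bh := 1883203505913525864168947465364 / 1000000000000000000000000000000) hb hγ g1 g2 (by norm_num) (by norm_num)
    (by norm_num) (by norm_num)
  have hb17 : 17 / 10 ≤ b := le_trans (by norm_num) b1
  refine ⟨hb17, ?_⟩
  have hV := (Vs_spec (x := γ) (y := γ') (t := 2) (by push_cast; linarith)
    (by linear_combination hc) 40).1
  have hV40 : Vs 2 40 = 2046573816377474 := by decide +kernel
  rw [hV40] at hV
  have hy : |γ'| ≤ 414214 / 1000000 := by
    have g1' : (2.414213:ℝ) ≤ γ := le_trans (by norm_num) g1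
    have g2' : γ ≤ 2.414214 := g2.trans (by norm_num)
    rw [abs_le]; constructor <;> linarith
  have hyr : |γ'| ^ 40 ≤ (414214 / 1000000) ^ 40 := by gcongr
  have hP : |2 * (γ + (0:ℤ)) ^ 40 - (4093147632754948:ℕ)| ≤ 1 / 1000 := by
    have h1 : 2 * (γ + (0:ℤ)) ^ 40 - (4093147632754948:ℕ) = -(2 * γ' ^ 40) := by
      push_cast
      push_cast at hV
      rw [add_zero]
      linear_combination 2 * hV
    rw [h1, abs_neg, abs_mul, abs_pow, abs_of_pos (by norm_num : (0:ℝ) < 2)]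
    calc 2 * |γ'| ^ 40 ≤ 2 * (414214 / 1000000) ^ 40 := by gcongr
      _ ≤ 1 / 1000 := by norm_num
  have hpub : 2 * (γ + (0:ℤ)) ^ 40 ≤ 4093147632754949 := by
    have := (abs_le.1 hP).2
    push_cast at this ⊢
    linarith
  have hplb : 1 ≤ 2 * (γ + (0:ℤ)) ^ 40 := by
    have := (abs_le.1 hP).1
    push_cast at this ⊢
    linarith
  refine base_state (s := 2) (c := -1) (e := 0) 40 4093147632754948 1883203505913525864168947465361
    1883203505913525864168947465364 1000000000000000000000000000000 hb17 hγ hz hz2 (by push_cast; exact hs)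
    (by push_cast; exact hc) hP hplb ?_ ?_ (by positivity) ?_ ?_ (by norm_num) ?_
  · have hpi := Real.pi_lt_d2
    calc 2 * Real.pi * (2 * (γ + (0:ℤ)) ^ 40) ≤ 2 * 3.15 * 4093147632754949 :=
          mul_le_mul (by linarith) hpub (by linarith) (by norm_num)
      _ ≤ (1883203505913525864168947465361 / 1000000000000000000000000000000) ^ 60 := by norm_num
      _ ≤ b ^ 60 := pow_le_pow_left₀ (by norm_num) b1 _
  · have hpi := Real.pi_lt_d2
    push_cast
    rw [add_zero]
    calc 8 * Real.pi * |γ'| ^ 40 ≤ 8 * 3.15 * (414214 / 1000000) ^ 40 :=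
          mul_le_mul (by linarith) hyr (pow_nonneg (abs_nonneg _) _) (by norm_num)
      _ ≤ (2 ^ 38)⁻¹ := by norm_num
  · push_cast
    rw [div_le_iff₀ (by positivity)] at b1
    exact b1
  · push_cast
    rw [le_div_iff₀ (by positivity)] at b2
    exact b2
  · decide +kernel

end Crest.Agent.S0137
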