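import Crest.Agent.S0137.Rec

set_option autoImplicit false
open Filter Topology

namespace Crest.Agent.S0137

lemma base_sum {b : ℝ} (hb : 17 / 10 ≤ b) (x : ℤ → ℝ) (hx : ∀ n, 0 ≤ x n) (L : ℕ) (D η : ℝ)
    (hη : 0 ≤ η) (hleft : ∀ n : ℤ, n ≤ -L → x n ≤ b ^ (n + L))
    (hcore : ∀ n : ℤ, -L ≤ n → n ≤ L → x n ≤ D)
    (hright : ∀ n : ℤ, (L:ℤ) ≤ n → x n ≤ b ^ ((L:ℤ) - n) + η) (K N : ℕ) :
    ∑ n ∈ Finset.Icc (-(K:ℤ)) N, x n ≤ ((2 * L + 1) * D + 2) + 2 + N * η := by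
  refine extend_sum hb x hx L _ η hη ?_ hright K N
  intro K
  have h1 : ∑ n ∈ Finset.Icc (-(K:ℤ)) L, x n ≤
      ∑ n ∈ Finset.Ico (-(K:ℤ)) (-L) ∪ Finset.Icc (-(L:ℤ)) L, x n := by
    apply Finset.sum_le_sum_of_subset_of_nonneg
    · intro n hn
      simp only [Finset.mem_union, Finset.mem_Ico, Finset.mem_Icc] at hn ⊢
      omega
    · intro n _ _
      exact hx n
  have h2 : Disjoint (Finset.Ico (-(K:ℤ)) (-L)) (Finset.Icc (-(L:ℤ)) L) := by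
    rw [Finset.disjoint_left]
    intro n hn hn2
    simp only [Finset.mem_Icc, Finset.mem_Ico] at hn hn2
    omega
  rw [Finset.sum_union h2] at h1
  have h3 : ∑ n ∈ Finset.Icc (-(L:ℤ)) L, x n ≤ (2 * L + 1) * D := by
    have h4 : ∑ n ∈ Finset.Icc (-(L:ℤ)) L, x n ≤ ∑ n ∈ Finset.Icc (-(L:ℤ)) L, D :=
      Finset.sum_le_sum fun n hn => by
        simp only [Finset.mem_Icc] at hn
        exact hcore n hn.1 hn.2
    rw [Finset.sum_const, nsmul_eq_mul, Int.card_Icc] at h4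
    have h5 : (((L:ℤ) + 1 - -(L:ℤ)).toNat : ℝ) = 2 * L + 1 := by
      have : ((L:ℤ) + 1 - -(L:ℤ)).toNat = 2 * L + 1 := by omega
      rw [this]; push_cast; ring
    rw [h5] at h4
    exact h4
  have h6 : ∑ n ∈ Finset.Ico (-(K:ℤ)) (-L), x n ≤ 2 := by
    have h7 : ∑ n ∈ Finset.Ico (-(K:ℤ)) (-L), x n ≤ ∑ n ∈ Finset.Ico (-(K:ℤ)) (-L), b ^ (n + L) :=
      Finset.sum_le_sum fun n hn => by
        simp only [Finset.mem_Ico] at hn
        exact hleft n hn.2.le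
    refine h7.trans ?_
    refine le_trans (le_of_eq ?_) (geom_tail hb L K)
    refine Finset.sum_nbij' (fun n => -n) (fun n => -n) ?_ ?_ ?_ ?_ ?_
    · intro n hn
      simp only [Finset.mem_Ico, Finset.mem_Ioc] at hn ⊢
      omega
    · intro n hn
      simp only [Finset.mem_Ico, Finset.mem_Ioc] at hn ⊢
      omega
    · intro n _
      simp
    · intro n _
      simp
    · intro n _
      congr 1
      ring
  linarith

/-- the nearest-integer check -/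
def chk (P Nl Nh D n : ℕ) : Bool :=
  let k := (2 * P * D ^ n + Nl ^ n) / (2 * Nl ^ n)
  decide (62 * k * Nh ^ n * 1000 + 62 * D ^ n ≤ 62 * (1000 * P) * D ^ n + 30 * 1000 * Nh ^ n) &&
  decide (62 * (1000 * P + 1) * D ^ n ≤ 1000 * (62 * k + 30) * Nl ^ n)

lemma chk_spec {P Nl Nh D n : ℕ} (h : chk P Nl Nh D n = true) {b p : ℝ} (hb : 1 ≤ b)
    (hD : 0 < D) (hNl : (Nl:ℝ) ≤ b * D) (hNh : b * D ≤ Nh) (hNl0 : 0 < Nl)
    (hp : |p - P| ≤ 1 / 1000) (hp0 : 0 ≤ p) :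
    ∃ k : ℤ, |p * (b⁻¹) ^ n - k| ≤ 30 / 62 := by
  unfold chk at h
  simp only [Bool.and_eq_true, decide_eq_true_eq] at h
  set k := (2 * P * D ^ n + Nl ^ n) / (2 * Nl ^ n) with hk
  obtain ⟨h1, h2⟩ := h
  have h1' : (62:ℝ) * k * Nh ^ n * 1000 + 62 * D ^ n ≤
      62 * (1000 * P) * D ^ n + 30 * 1000 * Nh ^ n := by exact_mod_cast h1
  have h2' : (62:ℝ) * (1000 * P + 1) * D ^ n ≤ 1000 * (62 * k + 30) * Nl ^ n := by
    exact_mod_cast h2
  have hb0 : 0 < b := by linarith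
  have hD' : (0:ℝ) < D := by exact_mod_cast hD
  have hDn : (0:ℝ) < (D:ℝ) ^ n := by positivity
  have hbn : (0:ℝ) < b ^ n := by positivity
  have hNlp : (Nl:ℝ) ^ n ≤ b ^ n * D ^ n := by
    rw [← mul_pow]; gcongr
  have hNhp : b ^ n * D ^ n ≤ (Nh:ℝ) ^ n := by
    rw [← mul_pow]; gcongr
  obtain ⟨hp1, hp2⟩ := abs_le.1 hp
  refine ⟨k, ?_⟩
  have hup : 62 * p ≤ (62 * k + 30) * b ^ n := by
    have g1 : 1000 * (62 * (k:ℝ) + 30) * Nl ^ n ≤ 1000 * (62 * k + 30) * (b ^ n * D ^ n) := by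
      gcongr
    have g2 : 62 * (1000 * (P:ℝ) + 1) * D ^ n ≤ (1000 * (62 * k + 30) * b ^ n) * D ^ n := by
      linarith
    have g3 := le_of_mul_le_mul_right g2 hDn
    linarith
  have hlo : (62 * k - 30) * b ^ n ≤ 62 * p := by
    rcases Nat.eq_zero_or_pos k with h0 | h0
    · rw [h0]
      push_cast
      nlinarith
    · have hk1 : (1:ℝ) ≤ k := by exact_mod_cast h0
      have g0 : (0:ℝ) ≤ 62 * k - 30 := by linarith
      have g1 : 1000 * (62 * (k:ℝ) - 30) * (b ^ n * D ^ n) ≤ 1000 * (62 * k - 30) * Nh ^ n := by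
        gcongr
      have g2 : (1000 * (62 * (k:ℝ) - 30) * b ^ n) * D ^ n ≤ (62 * (1000 * P - 1)) * D ^ n := by
        linarith
      have g3 := le_of_mul_le_mul_right g2 hDn
      linarith
  have hq : p * b⁻¹ ^ n = p / b ^ n := by rw [inv_pow]; rfl
  rw [hq, abs_le]
  push_cast
  constructor
  · rw [neg_le_sub_iff_le_add, ← sub_le_iff_le_add, le_div_iff₀ hbn]
    linarith
  · rw [sub_le_iff_le_add, div_le_iff₀ hbn]
    linarith

lemma cos_lower {y : ℝ} (h : ∃ k : ℤ, |y - k| ≤ 30 / 62) : 1 / 31 ≤ |Real.cos (Real.pi * y)| := by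
  obtain ⟨k, hk⟩ := h
  have hpi := Real.pi_pos
  have h1 : |Real.cos (Real.pi * y)| = |Real.cos (Real.pi * |y - k|)| := by
    have h2 : Real.pi * y = Real.pi * (y - k) + k * Real.pi := by ring
    rw [h2, Real.cos_add_int_mul_pi, abs_mul, abs_zpow, abs_neg, abs_one, one_zpow, one_mul]
    rcases abs_cases (y - k) with ⟨h3, _⟩ | ⟨h3, _⟩
    · rw [h3]
    · rw [h3, mul_neg, Real.cos_neg]
  rw [h1]
  have h2 := Real.one_sub_mul_le_cos (x := Real.pi * |y - k|) (by positivity) (by nlinarith)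
  have h3 : 2 / Real.pi * (Real.pi * |y - k|) = 2 * |y - k| := by field_simp
  rw [h3] at h2
  refine le_trans ?_ (le_abs_self _)
  linarith

lemma cheb_int {x γ γ' : ℝ} {y : ℂ} {s c : ℤ} (hx : x ≠ 0) (hγ : x + x⁻¹ = γ) (hy : ‖y‖ = 1)
    (hy2 : 2 * y.re = γ') (hs : γ + γ' = s) (hc : γ * γ' = c) (n : ℕ) :
    (∃ u v : ℤ, x ^ n + (x⁻¹) ^ n = u + v * γ ∧ 2 * (y ^ n).re = u + v * γ') ∧
    (∃ u v : ℤ, x ^ (n + 1) + (x⁻¹) ^ (n + 1) = u + v * γ ∧ 2 * (y ^ (n + 1)).re = u + v * γ') := by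
  have hγ2 : γ ^ 2 = s * γ - c := by rw [← hs, ← hc]; ring
  have hγ'2 : γ' ^ 2 = s * γ' - c := by rw [← hs, ← hc]; ring
  have hy3 : y ^ 2 = (γ' : ℂ) * y - 1 := by
    have h1 : y.re ^ 2 + y.im ^ 2 = 1 := by
      have := Complex.sq_norm y
      rw [hy, Complex.normSq_apply] at this
      nlinarith
    apply Complex.ext
    · simp [pow_two, ← hy2]
      nlinarith
    · simp [pow_two, ← hy2]
      ring
  induction n with
  | zero =>
    refine ⟨⟨2, 0, by norm_num, by norm_num⟩, ⟨0, 1, ?_, ?_⟩⟩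
    · simpa using hγ
    · simpa using hy2
  | succ n ih =>
    obtain ⟨⟨u0, v0, h1, h2⟩, ⟨u1, v1, h3, h4⟩⟩ := ih
    refine ⟨⟨u1, v1, h3, h4⟩, ⟨-c * v1 - u0, u1 + s * v1 - v0, ?_, ?_⟩⟩
    · have h5 : x ^ (n + 1 + 1) + x⁻¹ ^ (n + 1 + 1) =
          γ * (x ^ (n + 1) + x⁻¹ ^ (n + 1)) - (x ^ n + x⁻¹ ^ n) := by
        have hxx : x * x⁻¹ = 1 := mul_inv_cancel₀ hx
        rw [← hγ]
        generalize x⁻¹ = i at hxx ⊢
        linear_combination (-(x ^ n + i ^ n)) * hxx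
      rw [h5, h3, h1]
      push_cast
      linear_combination (v1:ℝ) * hγ2
    · have h5 : y ^ (n + 1 + 1) = (γ' : ℂ) * y ^ (n + 1) - y ^ n := by
        have : y ^ (n + 1 + 1) = y ^ n * y ^ 2 := by ring
        rw [this, hy3]; ring
      rw [h5, Complex.sub_re, Complex.re_ofReal_mul]
      push_cast
      linear_combination γ' * h4 - h2 + (v1:ℝ) * hγ'2

lemma pow_int {γ γ' : ℝ} {s c e : ℤ} (hs : γ + γ' = s) (hc : γ * γ' = c) (r : ℕ) :
    ∃ u v : ℤ, (γ + e) ^ r = u + v * γ ∧ (γ' + e) ^ r = u + v * γ' := by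
  have hγ2 : γ ^ 2 = s * γ - c := by rw [← hs, ← hc]; ring
  have hγ'2 : γ' ^ 2 = s * γ' - c := by rw [← hs, ← hc]; ring
  induction r with
  | zero => exact ⟨1, 0, by simp, by simp⟩
  | succ r ih =>
    obtain ⟨u, v, h1, h2⟩ := ih
    refine ⟨u * e - c * v, u + v * e + s * v, ?_, ?_⟩
    · rw [pow_succ, h1]; push_cast; linear_combination (v:ℝ) * hγ2
    · rw [pow_succ, h2]; push_cast; linear_combination (v:ℝ) * hγ'2

theorem base_state {b γ γ' : ℝ} {z : ℂ} {s c e : ℤ} (r P Nl Nh D : ℕ)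
    (hb : 17 / 10 ≤ b) (hγ : b + b⁻¹ = γ) (hz : ‖z‖ = 1) (hz2 : 2 * z.re = γ')
    (hs : γ + γ' = s) (hc : γ * γ' = c)
    (hP : |2 * (γ + e) ^ r - P| ≤ 1 / 1000) (hp1 : 1 ≤ 2 * (γ + e) ^ r)
    (hpL : 2 * Real.pi * (2 * (γ + e) ^ r) ≤ b ^ 60)
    (hw : 8 * Real.pi * |γ' + e| ^ r ≤ ((2:ℝ) ^ 38)⁻¹)
    (hD : 0 < D) (hNl : (Nl:ℝ) ≤ b * D) (hNh : b * D ≤ Nh) (hNl0 : 0 < Nl)
    (hchk : ∀ n ≤ 60, chk P Nl Nh D n = true) : ∃ Y0 : ℝ, State b z 38 9 Y0 := by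
  have hb1 : 1 < b := by linarith
  have hb0 : 0 < b := by linarith
  have hpi := Real.pi_pos
  have hpi4 : Real.pi ≤ 4 := Real.pi_le_four
  obtain ⟨p, hp⟩ : ∃ p : ℝ, p = 2 * (γ + e) ^ r := ⟨_, rfl⟩
  obtain ⟨w, hwdef⟩ : ∃ w : ℂ, w = ((2 * (γ' + e) ^ r : ℝ) : ℂ) := ⟨_, rfl⟩
  obtain ⟨δ, hδ⟩ : ∃ δ : ℝ, δ = ((2:ℝ) ^ 38)⁻¹ := ⟨_, rfl⟩
  rw [← hp] at hP hp1 hpL
  rw [← hδ] at hw
  have hδ2 : δ ≤ 1 / 2 := by rw [hδ]; norm_num
  have hδ0 : 0 ≤ δ := by positivity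
  have hwn : 4 * Real.pi * ‖w‖ ≤ δ := by
    rw [hwdef, Complex.norm_real, Real.norm_eq_abs, abs_mul, abs_pow, abs_of_pos (by norm_num : (0:ℝ) < 2)]
    calc 4 * Real.pi * (2 * |γ' + e| ^ r) = 8 * Real.pi * |γ' + e| ^ r := by ring
      _ ≤ δ := hw
  have tr : ∀ n : ℕ, ∃ k : ℤ, p * b ^ n + p * (b⁻¹) ^ n + 2 * (w * z ^ n).re = 2 * k := by
    intro n
    obtain ⟨u, v, h1, h2⟩ := (cheb_int hb0.ne' hγ hz hz2 hs hc n).1
    obtain ⟨u', v', h3, h4⟩ := pow_int (e := e) hs hc r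
    have hγ2 : γ ^ 2 = s * γ - c := by rw [← hs, ← hc]; ring
    have hγ'2 : γ' ^ 2 = s * γ' - c := by rw [← hs, ← hc]; ring
    refine ⟨2 * (u * u' - c * v * v') + (u * v' + u' * v + s * v * v') * s, ?_⟩
    rw [hwdef, Complex.re_ofReal_mul]
    push_cast
    have h5 : p * b ^ n + p * b⁻¹ ^ n + 2 * (2 * (γ' + e) ^ r * (z ^ n).re) =
        2 * ((γ + e) ^ r * (b ^ n + b⁻¹ ^ n) + (γ' + e) ^ r * (2 * (z ^ n).re)) := by
      rw [hp]; ring
    rw [h5, h1, h2, h3, h4]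
    linear_combination 2 * (v:ℝ) * v' * hγ2 + 2 * (v:ℝ) * v' * hγ'2 +
      2 * ((u:ℝ) * v' + u' * v + s * v * v') * hs
  have hp0 : 0 ≤ p := by linarith
  have hp'L : 2 * Real.pi * |p| ≤ b ^ 60 := by rw [abs_of_nonneg hp0]; exact hpL
  have hcorem : ∀ m : ℕ, m ≤ 60 → 1 / 31 ≤ |Real.cos (Real.pi * (p * (b⁻¹) ^ m))| := by
    intro m hm
    exact cos_lower (chk_spec (hchk m hm) hb1.le hD hNl hNh hNl0 hP hp0)
  have hcore : ∀ n : ℤ, -((60:ℕ):ℤ) ≤ n → n ≤ ((60:ℕ):ℤ) →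
      1 / 32 ≤ |Real.cos (Real.pi * p * b ^ n)| := by
    intro n hn1 hn2
    rcases le_or_gt n 0 with h | h
    · obtain ⟨m, rfl⟩ : ∃ m : ℕ, n = -m := ⟨(-n).toNat, by omega⟩
      have h1 := hcorem m (by omega)
      rw [zpow_neg, zpow_natCast, ← inv_pow, mul_assoc]
      linarith
    · obtain ⟨m, rfl⟩ : ∃ m : ℕ, n = m := ⟨n.toNat, by omega⟩
      have h1 := hcorem m (by omega)
      obtain ⟨k, hk⟩ := tr m
      set ε : ℝ := 2 * (w * z ^ m).re with hε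
      have h2 : Real.pi * p * b ^ m = k * (2 * Real.pi) - (Real.pi * (p * b⁻¹ ^ m) + Real.pi * ε) := by
        have : p * b ^ m = 2 * k - (p * b⁻¹ ^ m + ε) := by linarith
        rw [mul_assoc, this]; ring
      rw [zpow_natCast, h2, Real.cos_int_mul_two_pi_sub]
      have h3 : |Real.pi * ε| ≤ 1 / 2000 := by
        have h4 : |(w * z ^ m).re| ≤ ‖w‖ := by
          refine (Complex.abs_re_le_norm _).trans ?_
          rw [norm_mul, norm_pow, hz, one_pow, mul_one]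
        rw [abs_mul, abs_of_pos hpi, hε, abs_mul, abs_of_pos (by norm_num : (0:ℝ) < 2)]
        have h5 : δ ≤ 1 / 2000 := by rw [hδ]; norm_num
        have h6 : Real.pi * (2 * |(w * z ^ m).re|) ≤ Real.pi * (2 * ‖w‖) := by gcongr
        have h7 : 0 ≤ Real.pi * ‖w‖ := by positivity
        nlinarith
      have h4 : |Real.cos (Real.pi * (p * b⁻¹ ^ m))| - |Real.pi * ε| ≤
          |Real.cos (Real.pi * (p * b⁻¹ ^ m) + Real.pi * ε)| := by
        have h5 := Real.abs_cos_sub_cos_le (Real.pi * (p * b⁻¹ ^ m)) (Real.pi * (p * b⁻¹ ^ m) + Real.pi * ε)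
        have h6 := abs_sub_abs_le_abs_sub (Real.cos (Real.pi * (p * b⁻¹ ^ m)))
          (Real.cos (Real.pi * (p * b⁻¹ ^ m) + Real.pi * ε))
        have h7 : |Real.pi * (p * b⁻¹ ^ m) - (Real.pi * (p * b⁻¹ ^ m) + Real.pi * ε)| = |Real.pi * ε| := by
          rw [sub_add_cancel_left, abs_neg]
        linarith
      linarith
  have htt : ∀ n : ℤ, -((60:ℕ):ℤ) ≤ n → n ≤ ((60:ℕ):ℤ) → tt b p n ≤ 32 := by
    intro n h1 h2
    have h3 := hcore n h1 h2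
    unfold tt
    rw [Real.tan_eq_sin_div_cos, abs_div, div_le_iff₀ (by linarith)]
    have := Real.abs_sin_le_one (Real.pi * p * b ^ n)
    linarith
  have hps : ∀ n : ℤ, -((60:ℕ):ℤ) ≤ n → n ≤ ((60:ℕ):ℤ) → ps b p n ≤ Real.log 32 := by
    intro n h1 h2
    have h3 := hcore n h1 h2
    unfold ps
    have h4 : Real.log (1 / 32) ≤ Real.log |Real.cos (Real.pi * p * b ^ n)| :=
      Real.log_le_log (by norm_num) h3
    rw [one_div, Real.log_inv] at h4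
    linarith
  have hright : ∀ n : ℤ, ((60:ℕ):ℤ) ≤ n → _ := fun n hn =>
    right_all (L := 60) hb1 hz tr hp'L hwn hδ2 n hn
  refine ⟨((2 * ((60:ℕ):ℝ) + 1) * Real.log 32 + 2) + 2, p, p, w, 60,
    ((2 * ((60:ℕ):ℝ) + 1) * 32 + 2) + 2, ?_, ?_, ?_⟩
  rw [← hδ]
  refine ⟨tr, hp1, hpL, hp'L, hwn, hδ2, ?_, ?_, ?_⟩
  · intro n
    rcases le_or_gt n (-((60:ℕ):ℤ)) with h | h
    · exact left_nz hb1 hp1 hpL n h
    · rcases le_or_gt n ((60:ℕ):ℤ) with h' | h'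
      · have := hcore n h.le h'
        intro h0
        rw [h0, abs_zero] at this
        norm_num at this
      · exact (hright n h'.le).1
  · exact base_sum hb (tt b p) (tt_nonneg b p) 60 32 δ hδ0
      (fun n hn => left_tt hb1 hp1 hpL n hn) htt (fun n hn => (hright n hn).2.1)
  · refine base_sum hb (ps b p) (ps_nonneg b p) 60 (Real.log 32) (δ ^ 2) (by positivity)
      (fun n hn => ?_) hps (fun n hn => (hright n hn).2.2)
    have h1 := left_arg_le hb1 hp1 hpL n hn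
    have h2 := left_arg hb1 hp1 hpL n
    have h3 := neg_log_cos_le h1
    unfold ps
    have h4 : (Real.pi * p * b ^ n) ^ 2 ≤ |Real.pi * p * b ^ n| := by
      rw [← sq_abs]; nlinarith [abs_nonneg (Real.pi * p * b ^ n)]
    refine h3.trans (h4.trans (h2.trans ?_))
    have h5 : 0 ≤ b ^ (n + ((60:ℕ):ℤ)) := by positivity
    calc 1 / 2 * b ^ (n + ((60:ℕ):ℤ)) ≤ 1 * b ^ (n + ((60:ℕ):ℤ)) := by gcongr; norm_num
      _ = b ^ (n + ((60:ℕ):ℤ)) := one_mul _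
  · norm_num
  · norm_num

end Crest.Agent.S0137
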