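import Mathlib

set_option autoImplicit false
open Filter Topology

namespace Crest.Agent.S0137

lemma norm_pow_sub_one_le {u : ℂ} (hu : ‖u‖ = 1) (r : ℕ) : ‖u ^ r - 1‖ ≤ r * ‖u - 1‖ := by
  induction r with
  | zero => simp
  | succ r ih =>
    have h : u ^ (r + 1) - 1 = u * (u ^ r - 1) + (u - 1) := by ring
    rw [h]
    refine (norm_add_le _ _).trans ?_
    rw [norm_mul, hu, one_mul]
    push_cast
    linarith

lemma dirichlet0 (z : ℂ) (hz : ‖z‖ = 1) (J : ℕ) (hJ : 0 < J) :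
    ∃ k : ℕ, 0 < k ∧ k ≤ J ∧ ‖z ^ k - 1‖ ≤ 2 * Real.pi / J := by
  obtain ⟨k, h0, h1, h2⟩ := Real.exists_nat_abs_mul_sub_round_le (z.arg / (2 * Real.pi)) hJ
  refine ⟨k, h0, h1, ?_⟩
  have hpi := Real.pi_pos
  have hz1 : z = Complex.exp (z.arg * Complex.I) := by
    have := Complex.norm_mul_exp_arg_mul_I z
    rw [hz] at this
    simpa using this.symm
  set m : ℤ := round (k * (z.arg / (2 * Real.pi))) with hm
  have hz2 : z ^ k = Complex.exp (Complex.I * ((2 * Real.pi * (k * (z.arg / (2 * Real.pi)) - m) : ℝ) : ℂ)) := by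
    conv_lhs => rw [hz1]
    rw [← Complex.exp_nat_mul]
    rw [Complex.exp_eq_exp_iff_exists_int]
    refine ⟨m, ?_⟩
    have : (Real.pi : ℂ) ≠ 0 := by exact_mod_cast hpi.ne'
    push_cast
    field_simp
    ring
  rw [hz2]
  refine Real.norm_exp_I_mul_ofReal_sub_one_le.trans ?_
  rw [Real.norm_eq_abs, abs_mul, abs_of_pos (by positivity)]
  have hJ' : (0:ℝ) < J := by exact_mod_cast hJ
  calc 2 * Real.pi * |k * (z.arg / (2 * Real.pi)) - m| ≤ 2 * Real.pi * (1 / (J + 1)) := by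
        gcongr
    _ ≤ 2 * Real.pi * (1 / J) := by gcongr; linarith
    _ = 2 * Real.pi / J := by ring

lemma dirichlet (z : ℂ) (hz : ‖z‖ = 1) (E J : ℕ) (hE : 1 ≤ E) (hEJ : E ≤ J) :
    ∃ j : ℕ, E ≤ j ∧ ((j ≤ J ∧ ‖z ^ j - 1‖ ≤ 2 * Real.pi / J) ∨
      (j ≤ 2 * E ∧ ‖z ^ j - 1‖ ≤ E * (2 * Real.pi / J))) := by
  obtain ⟨k, h0, h1, h2⟩ := dirichlet0 z hz J (by omega)
  rcases le_or_gt E k with h | h
  · exact ⟨k, h, Or.inl ⟨h1, h2⟩⟩
  · -- r = ⌈E / k⌉
    set r := (E + k - 1) / k with hr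
    have hr1 : E ≤ r * k := by
      have := Nat.div_add_mod (E + k - 1) k
      have h3 := Nat.mod_lt (E + k - 1) h0
      rw [← hr] at this
      have h4 : k * r = r * k := mul_comm _ _
      omega
    have hr2 : r * k ≤ E + k - 1 := Nat.div_mul_le_self _ _
    have hr3 : r ≤ E := by
      rw [hr, Nat.div_le_iff_le_mul_add_pred h0]
      have h4 : E ≤ k * E := Nat.le_mul_of_pos_left E h0
      omega
    refine ⟨r * k, hr1, Or.inr ⟨by omega, ?_⟩⟩
    rw [mul_comm, pow_mul]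
    refine (norm_pow_sub_one_le (by rw [norm_pow, hz, one_pow]) r).trans ?_
    have : (r:ℝ) ≤ E := by exact_mod_cast hr3
    gcongr

end Crest.Agent.S0137
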