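import Crest.Agent.S0137.Step
import Crest.Agent.S0137.Diri

set_option autoImplicit false
open Filter Topology

namespace Crest.Agent.S0137

def State (b : ℝ) (z : ℂ) (X l : ℕ) (Y : ℝ) : Prop :=
  ∃ (p p' : ℝ) (w : ℂ) (L : ℕ) (T : ℝ), Dat b z p p' w L ((2:ℝ) ^ X)⁻¹ T Y ∧
    T ≤ 2 ^ (X / 2) ∧ 2 * L + 4 * X ≤ 2 ^ l

lemma pow_half_le (b : ℝ) (hb : 17 / 10 ≤ b) (X : ℕ) : (b ^ (2 * X))⁻¹ ≤ ((2:ℝ) ^ X)⁻¹ := by
  rw [pow_mul]
  have : (2:ℝ) ≤ b ^ 2 := by nlinarith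
  gcongr

lemma two_pow_cast (a c d : ℕ) (h : a + c = d) : ((2:ℝ) ^ a) * 2 ^ c = 2 ^ d := by
  rw [← pow_add, h]

theorem State.step {b : ℝ} {z : ℂ} {X l : ℕ} {Y : ℝ} (hb : 17 / 10 ≤ b) (hz : ‖z‖ = 1)
    (h : State b z X l Y) (hX : 38 ≤ X) (hl : 10 * l ≤ 7 * X) :
    ∃ X' l' : ℕ, State b z X' l' (2 * Y + 4) ∧ 38 ≤ X' ∧ 10 * l' ≤ 7 * X' ∧
      9 * (4 * (X:ℤ) - l) ≤ 4 * (4 * (X':ℤ) - l') := by
  obtain ⟨p, p', w, L, T, hD, hT, hL⟩ := h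
  have hpi : Real.pi ≤ 4 := Real.pi_le_four
  have hpi0 := Real.pi_pos
  have hlX : l ≤ 2 * X - 7 := by omega
  have hE1 : 1 ≤ 2 ^ l := Nat.one_le_two_pow
  have hEJ : 2 ^ l ≤ 2 ^ (2 * X - 6) := Nat.pow_le_pow_right (by norm_num) (by omega)
  obtain ⟨j, hj1, hj2⟩ := dirichlet z hz (2 ^ l) (2 ^ (2 * X - 6)) hE1 hEJ
  have hA : (0:ℝ) < 2 ^ X := by positivity
  set A : ℝ := 2 ^ X with hAdef
  have hA16 : (2:ℝ) ^ (X / 2) ≤ A / 16 := by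
    rw [le_div_iff₀ (by norm_num)]
    calc (2:ℝ) ^ (X / 2) * 16 = 2 ^ (X / 2) * 2 ^ 4 := by norm_num
      _ = 2 ^ (X / 2 + 4) := by rw [pow_add]
      _ ≤ A := by
        rw [hAdef]
        exact pow_le_pow_right₀ (by norm_num) (by omega)
  have hA100 : (16:ℝ) ≤ A := by
    calc (16:ℝ) = 2 ^ 4 := by norm_num
      _ ≤ A := by rw [hAdef]; exact pow_le_pow_right₀ (by norm_num) (by omega)
  have hJR : ((2 ^ (2 * X - 6) : ℕ) : ℝ) * 64 = A ^ 2 := by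
    push_cast
    rw [show (64:ℝ) = 2 ^ 6 by norm_num, two_pow_cast _ _ (2 * X) (by omega), hAdef, ← pow_mul]
    congr 1; omega
  have hJ0 : (0:ℝ) < ((2 ^ (2 * X - 6) : ℕ) : ℝ) := by positivity
  -- L + 2 j bound
  have h4l : 8 * 2 ^ l ≤ 2 ^ (2 * X - 6) := by
    calc 8 * 2 ^ l = 2 ^ (l + 3) := by rw [pow_add]; ring
      _ ≤ 2 ^ (2 * X - 6) := Nat.pow_le_pow_right (by norm_num) (by omega)
  have hLj : L + j + j ≤ 3 * 2 ^ (2 * X - 6) := by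
    rcases hj2 with ⟨h1, _⟩ | ⟨h1, _⟩ <;> omega
  have hLjR : ((L + j + j : ℕ) : ℝ) ≤ 3 / 64 * A ^ 2 := by
    have : ((L + j + j : ℕ) : ℝ) ≤ ((3 * 2 ^ (2 * X - 6) : ℕ) : ℝ) := by exact_mod_cast hLj
    rw [Nat.cast_mul] at this
    push_cast at this hJR ⊢
    linarith
  have hU : T + ((L + j + j : ℕ) : ℝ) * A⁻¹ ≤ A / 8 := by
    have h1 : ((L + j + j : ℕ) : ℝ) * A⁻¹ ≤ 3 / 64 * A ^ 2 * A⁻¹ := by gcongr
    have h2 : 3 / 64 * A ^ 2 * A⁻¹ = 3 / 64 * A := by field_simp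
    linarith
  have hS : 3 * A⁻¹ * (A / 8) ≤ 1 / 2 := by
    have : 3 * A⁻¹ * (A / 8) = 3 / 8 := by field_simp
    rw [this]; norm_num
  have hj2' : 2 ≤ j := by
    have : 4 * X ≤ 2 ^ l := by omega
    omega
  have hYle : 2 * Y + 2 * ((L + j + j : ℕ) : ℝ) * A⁻¹ ^ 2 + 3 ≤ 2 * Y + 4 := by
    have h1 : 2 * ((L + j + j : ℕ) : ℝ) * A⁻¹ ^ 2 ≤ 2 * (3 / 64 * A ^ 2) * A⁻¹ ^ 2 := by gcongr
    have h2 : 2 * (3 / 64 * A ^ 2) * A⁻¹ ^ 2 = 3 / 32 := by field_simp; norm_num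
    linarith
  have hTle : 4 * (A / 8) + 2 ≤ A := by linarith
  -- common construction
  have key : ∀ X' l' : ℕ, 2 * X ≤ X' → A⁻¹ * ‖z ^ j - 1‖ ≤ ((2:ℝ) ^ X')⁻¹ →
      2 * (L + j) + 4 * X' ≤ 2 ^ l' → State b z X' l' (2 * Y + 4) := by
    intro X' l' hX' hδ' hl'
    have hd2 : ((2:ℝ) ^ X')⁻¹ ≤ 1 / 2 := by
      rw [one_div]
      gcongr
      calc (2:ℝ) = 2 ^ 1 := by norm_num
        _ ≤ 2 ^ X' := pow_le_pow_right₀ (by norm_num) (by omega)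
    have hst := hD.step hb hz j (2 * X) hj2' (by omega) (pow_half_le b hb X) (A / 8) hU hS
      ((2:ℝ) ^ X')⁻¹ hδ' hd2
    refine ⟨p * (b ^ j - 1), p' * ((b⁻¹) ^ j - 1), w * (z ^ j - 1), L + j, 4 * (A / 8) + 2,
      ?_, ?_, hl'⟩
    · exact ⟨hst.tr, hst.hp1, hst.hp, hst.hp', hst.hw, hst.hδ, hst.nz, hst.hT,
        fun K N => (hst.hY K N).trans (by gcongr)⟩
    · refine hTle.trans ?_
      rw [hAdef]
      exact pow_le_pow_right₀ (by norm_num) (by omega)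
  rcases hj2 with ⟨h1, h2⟩ | ⟨h1, h2⟩
  · refine ⟨3 * X - 9, 2 * X - 4, key _ _ (by omega) ?_ ?_, by omega, by omega, by omega⟩
    · have h3 : 2 * Real.pi / ((2 ^ (2 * X - 6) : ℕ) : ℝ) ≤ 512 / A ^ 2 := by
        rw [div_le_div_iff₀ hJ0 (by positivity)]
        nlinarith
      have h4 : ((2:ℝ) ^ (3 * X - 9)) * 2 ^ 9 = A ^ 3 := by
        rw [two_pow_cast _ _ (3 * X) (by omega), hAdef, ← pow_mul]
        congr 1; omega
      have h5 : ((2:ℝ) ^ (3 * X - 9))⁻¹ = 512 / A ^ 3 := by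
        rw [← h4]; norm_num; field_simp
      rw [h5]
      calc A⁻¹ * ‖z ^ j - 1‖ ≤ A⁻¹ * (512 / A ^ 2) := by gcongr; exact h2.trans h3
        _ = 512 / A ^ 3 := by field_simp
    · have e1 : 2 ^ (2 * X - 4) = 4 * 2 ^ (2 * X - 6) := by
        rw [show 2 * X - 4 = (2 * X - 6) + 2 by omega, pow_add]; ring
      have e2 : 12 * X ≤ 2 ^ (2 * X - 6) := by
        calc 12 * X ≤ 8 * 2 ^ l := by omega
          _ ≤ _ := h4l
      omega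
  · refine ⟨3 * X - l - 9, l + 3, key _ _ (by omega) ?_ ?_, by omega, by omega, by omega⟩
    · have h3 : 2 * Real.pi / ((2 ^ (2 * X - 6) : ℕ) : ℝ) ≤ 512 / A ^ 2 := by
        rw [div_le_div_iff₀ hJ0 (by positivity)]
        nlinarith
      have h4 : ((2:ℝ) ^ (3 * X - l - 9)) * 2 ^ 9 * 2 ^ l = A ^ 3 := by
        rw [two_pow_cast _ _ (3 * X - l) (by omega), two_pow_cast _ _ (3 * X) (by omega), hAdef,
          ← pow_mul]
        congr 1; omega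
      have h5 : ((2:ℝ) ^ (3 * X - l - 9))⁻¹ = 2 ^ l * 512 / A ^ 3 := by
        rw [← h4]; norm_num; field_simp
      rw [h5]
      calc A⁻¹ * ‖z ^ j - 1‖ ≤ A⁻¹ * (2 ^ l * (512 / A ^ 2)) := by
            gcongr
            refine h2.trans ?_
            push_cast
            push_cast at h3
            gcongr
        _ = 2 ^ l * 512 / A ^ 3 := by field_simp
    · have e1 : 2 ^ (l + 3) = 8 * 2 ^ l := by rw [pow_add]; ring
      omega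

end Crest.Agent.S0137
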