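import Mathlib

set_option autoImplicit false
open Filter Topology

namespace Crest.Agent.S0137

/-! ### elementary estimates -/

lemma cos_ge_half {x : ℝ} (hx : |x| ≤ 1) : 1 / 2 ≤ Real.cos x := by
  have h := Real.one_sub_sq_div_two_le_cos (x := x)
  have h2 : x ^ 2 ≤ 1 := by
    rw [← sq_abs]; nlinarith [abs_nonneg x]
  linarith

lemma abs_tan_le {x : ℝ} (hx : |x| ≤ 1) : |Real.tan x| ≤ 2 * |x| := by
  have h := cos_ge_half hx
  rw [Real.tan_eq_sin_div_cos, abs_div, abs_of_pos (by linarith : 0 < Real.cos x),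
    div_le_iff₀ (by linarith)]
  have h2 : |Real.sin x| ≤ |x| := Real.abs_sin_le_abs
  nlinarith [abs_nonneg x]

lemma neg_log_cos_le {x : ℝ} (hx : |x| ≤ 1) : -Real.log |Real.cos x| ≤ x ^ 2 := by
  have h := cos_ge_half hx
  have h0 := Real.one_sub_sq_div_two_le_cos (x := x)
  rw [abs_of_pos (by linarith)]
  have h1 := Real.one_sub_inv_le_log_of_pos (by linarith : 0 < Real.cos x)
  have h2 : (Real.cos x)⁻¹ - 1 ≤ x ^ 2 := by
    rw [sub_le_iff_le_add, inv_le_comm₀ (by linarith) (by positivity)]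
    have : (x ^ 2 + 1)⁻¹ ≤ 1 - x ^ 2 / 2 := by
      rw [inv_le_iff_one_le_mul₀ (by positivity)]
      have h2 : x ^ 2 ≤ 1 := by
        rw [← sq_abs]; nlinarith [abs_nonneg x]
      nlinarith [sq_nonneg x]
    linarith
  linarith

/-- `|tan (π p b^n)|` -/
noncomputable def tt (b p : ℝ) (n : ℤ) : ℝ := |Real.tan (Real.pi * p * b ^ n)|
/-- `-log |cos (π p b^n)|` -/
noncomputable def ps (b p : ℝ) (n : ℤ) : ℝ := -Real.log |Real.cos (Real.pi * p * b ^ n)|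

lemma tt_nonneg (b p : ℝ) (n : ℤ) : 0 ≤ tt b p n := abs_nonneg _

lemma ps_nonneg (b p : ℝ) (n : ℤ) : 0 ≤ ps b p n := by
  unfold ps
  have := Real.log_nonpos (abs_nonneg (Real.cos (Real.pi * p * b ^ n))) (Real.abs_cos_le_one _)
  linarith

/-- A frequency `p` with its conjugate data. -/
structure Dat (b : ℝ) (z : ℂ) (p p' : ℝ) (w : ℂ) (L : ℕ) (δ T Y : ℝ) : Prop where
  tr : ∀ n : ℕ, ∃ k : ℤ, p * b ^ n + p' * (b⁻¹) ^ n + 2 * (w * z ^ n).re = 2 * k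
  hp1 : 1 ≤ p
  hp : 2 * Real.pi * p ≤ b ^ L
  hp' : 2 * Real.pi * |p'| ≤ b ^ L
  hw : 4 * Real.pi * ‖w‖ ≤ δ
  hδ : δ ≤ 1 / 2
  nz : ∀ n : ℤ, Real.cos (Real.pi * p * b ^ n) ≠ 0
  hT : ∀ K N : ℕ, ∑ n ∈ Finset.Icc (-(K:ℤ)) N, tt b p n ≤ T + N * δ
  hY : ∀ K N : ℕ, ∑ n ∈ Finset.Icc (-(K:ℤ)) N, ps b p n ≤ Y + N * δ ^ 2

section tails

variable {b : ℝ} {z : ℂ} {p p' : ℝ} {w : ℂ} {L : ℕ} {δ : ℝ}

lemma left_arg (hb : 1 < b) (hp1 : 1 ≤ p) (hp : 2 * Real.pi * p ≤ b ^ L) (n : ℤ) :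
    |Real.pi * p * b ^ n| ≤ 1 / 2 * b ^ (n + L) := by
  have hb0 : 0 < b := by linarith
  rw [abs_of_pos (by positivity), zpow_add₀ hb0.ne', zpow_natCast]
  have : 0 < b ^ n := by positivity
  nlinarith

lemma left_arg_le (hb : 1 < b) (hp1 : 1 ≤ p) (hp : 2 * Real.pi * p ≤ b ^ L) (n : ℤ)
    (hn : n ≤ -L) : |Real.pi * p * b ^ n| ≤ 1 := by
  have h := left_arg hb hp1 hp n
  have h2 : b ^ (n + L) ≤ 1 := zpow_le_one_of_nonpos₀ hb.le (by omega)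
  linarith

lemma left_tt (hb : 1 < b) (hp1 : 1 ≤ p) (hp : 2 * Real.pi * p ≤ b ^ L) (n : ℤ)
    (hn : n ≤ -L) : tt b p n ≤ b ^ (n + L) := by
  have h := left_arg hb hp1 hp n
  have h2 := abs_tan_le (left_arg_le hb hp1 hp n hn)
  unfold tt
  linarith

lemma left_nz (hb : 1 < b) (hp1 : 1 ≤ p) (hp : 2 * Real.pi * p ≤ b ^ L) (n : ℤ)
    (hn : n ≤ -L) : Real.cos (Real.pi * p * b ^ n) ≠ 0 := by
  have h2 := cos_ge_half (left_arg_le hb hp1 hp n hn)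
  linarith

lemma right_arg (hb : 1 < b) (hz : ‖z‖ = 1)
    (tr : ∀ n : ℕ, ∃ k : ℤ, p * b ^ n + p' * (b⁻¹) ^ n + 2 * (w * z ^ n).re = 2 * k)
    (hp' : 2 * Real.pi * |p'| ≤ b ^ L) (hw : 4 * Real.pi * ‖w‖ ≤ δ) (n : ℤ) (hn : L ≤ n) :
    ∃ (k : ℤ) (u : ℝ), Real.pi * p * b ^ n = k * (2 * Real.pi) - u ∧
      |u| ≤ 1 / 2 * (b ^ ((L:ℤ) - n) + δ) := by
  have hb0 : 0 < b := by linarith
  obtain ⟨m, rfl⟩ : ∃ m : ℕ, n = m := ⟨n.toNat, by omega⟩
  obtain ⟨k, hk⟩ := tr m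
  refine ⟨k, Real.pi * (p' * (b⁻¹) ^ m + 2 * (w * z ^ m).re), ?_, ?_⟩
  · rw [zpow_natCast]
    have : p * b ^ m = 2 * k - (p' * (b⁻¹) ^ m + 2 * (w * z ^ m).re) := by linarith
    rw [mul_assoc, this]; ring
  · have h1 : |(w * z ^ m).re| ≤ ‖w‖ := by
      refine (Complex.abs_re_le_norm _).trans ?_
      rw [norm_mul, norm_pow, hz, one_pow, mul_one]
    have hpi := Real.pi_pos
    rw [abs_mul, abs_of_pos hpi]
    have h2 : |p' * b⁻¹ ^ m + 2 * (w * z ^ m).re| ≤ |p'| * b⁻¹ ^ m + 2 * ‖w‖ := by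
      refine (abs_add_le _ _).trans ?_
      rw [abs_mul, abs_mul, abs_of_pos (by positivity : 0 < b⁻¹ ^ m), abs_of_pos (by norm_num : (0:ℝ) < 2)]
      linarith
    have h3 : b ^ ((L:ℤ) - m) = b ^ L * b⁻¹ ^ m := by
      rw [zpow_sub₀ hb0.ne', zpow_natCast, zpow_natCast, inv_pow]; rfl
    rw [h3]
    have h4 : 0 < b⁻¹ ^ m := by positivity
    calc Real.pi * |p' * b⁻¹ ^ m + 2 * (w * z ^ m).re|
        ≤ Real.pi * (|p'| * b⁻¹ ^ m + 2 * ‖w‖) := by gcongr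
      _ = 1 / 2 * ((2 * Real.pi * |p'|) * b⁻¹ ^ m + 4 * Real.pi * ‖w‖) := by ring
      _ ≤ _ := by gcongr

lemma right_all (hb : 1 < b) (hz : ‖z‖ = 1)
    (tr : ∀ n : ℕ, ∃ k : ℤ, p * b ^ n + p' * (b⁻¹) ^ n + 2 * (w * z ^ n).re = 2 * k)
    (hp' : 2 * Real.pi * |p'| ≤ b ^ L) (hw : 4 * Real.pi * ‖w‖ ≤ δ) (hδ : δ ≤ 1 / 2)
    (n : ℤ) (hn : L ≤ n) :
    Real.cos (Real.pi * p * b ^ n) ≠ 0 ∧ tt b p n ≤ b ^ ((L:ℤ) - n) + δ ∧
      ps b p n ≤ b ^ ((L:ℤ) - n) + δ ^ 2 := by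
  obtain ⟨k, u, h1, h2⟩ := right_arg hb hz tr hp' hw n hn
  have hb0 : 0 < b := by linarith
  have h3 : b ^ ((L:ℤ) - n) ≤ 1 := zpow_le_one_of_nonpos₀ hb.le (by omega)
  have h3' : 0 < b ^ ((L:ℤ) - n) := by positivity
  have hu : |u| ≤ 1 := by linarith
  have hδ0 : 0 ≤ δ := le_trans (by positivity) hw
  have hc : Real.cos (Real.pi * p * b ^ n) = Real.cos u := by
    rw [h1, Real.cos_int_mul_two_pi_sub]
  have hs : Real.tan (Real.pi * p * b ^ n) = - Real.tan u := by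
    rw [Real.tan_eq_sin_div_cos, Real.tan_eq_sin_div_cos, hc, h1, Real.sin_int_mul_two_pi_sub]
    ring
  refine ⟨?_, ?_, ?_⟩
  · rw [hc]; have := cos_ge_half hu; linarith
  · unfold tt
    rw [hs, abs_neg]
    have := abs_tan_le hu
    linarith
  · unfold ps
    rw [hc]
    refine (neg_log_cos_le hu).trans ?_
    rw [← sq_abs]
    calc |u| ^ 2 ≤ (1 / 2 * (b ^ ((L:ℤ) - n) + δ)) ^ 2 := by gcongr
      _ ≤ b ^ ((L:ℤ) - n) + δ ^ 2 := by
        nlinarith [sq_nonneg (b ^ ((L:ℤ) - n) - δ)]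

end tails

/-! ### sums -/

lemma sum_shift (x : ℤ → ℝ) (hx : ∀ n, 0 ≤ x n) (K N j : ℕ) :
    ∑ n ∈ Finset.Icc (-(K:ℤ)) N, x (n + j) ≤ ∑ n ∈ Finset.Icc (-(K:ℤ)) ((N + j : ℕ) : ℤ), x n := by
  have h1 : ∑ n ∈ Finset.Icc (-(K:ℤ)) N, x (n + j) =
      ∑ n ∈ Finset.Icc (-(K:ℤ) + j) (N + j), x n := by
    rw [← Finset.map_add_right_Icc, Finset.sum_map]
    simp
  rw [h1]
  apply Finset.sum_le_sum_of_subset_of_nonneg
  · intro n hn
    simp only [Finset.mem_Icc] at hn ⊢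
    push_cast
    omega
  · intro n _ _
    exact hx n

lemma geom_tail {b : ℝ} (hb : 17 / 10 ≤ b) (L : ℕ) (N : ℕ) :
    ∑ n ∈ Finset.Ioc (L:ℤ) N, b ^ ((L:ℤ) - n) ≤ 2 := by
  have hb0 : 0 < b := by linarith
  rcases le_or_gt N L with h | h
  · rw [Finset.Ioc_eq_empty (by omega)]
    simp
  obtain ⟨d, rfl⟩ : ∃ d, N = L + d := ⟨N - L, by omega⟩
  have h1 : ∑ n ∈ Finset.Ioc (L:ℤ) ((L + d : ℕ) : ℤ), b ^ ((L:ℤ) - n) =
      ∑ i ∈ Finset.range d, (b⁻¹) ^ (i + 1) := by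
    symm
    refine Finset.sum_bij (fun i _ => (L:ℤ) + (i + 1)) ?_ ?_ ?_ ?_
    · intro i hi
      simp only [Finset.mem_range] at hi
      simp only [Finset.mem_Ioc]
      push_cast
      omega
    · intro i _ j _ hij
      omega
    · intro n hn
      simp only [Finset.mem_Ioc] at hn
      push_cast at hn
      refine ⟨(n - L - 1).toNat, ?_, ?_⟩
      · simp only [Finset.mem_range]; omega
      · omega
    · intro i _
      rw [show (L:ℤ) - (L + (i + 1)) = -((i + 1 : ℕ) : ℤ) by push_cast; ring, zpow_neg,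
        zpow_natCast, inv_pow]
  rw [h1]
  have h2 : b⁻¹ ≤ 10 / 17 := by
    rw [inv_le_comm₀ hb0 (by norm_num)]; norm_num; linarith
  have h3 : 0 < b⁻¹ := by positivity
  calc ∑ i ∈ Finset.range d, (b⁻¹) ^ (i + 1) ≤ ∑ i ∈ Finset.range d, (10 / 17 : ℝ) ^ (i + 1) := by
        gcongr
    _ = (10 / 17) * ∑ i ∈ Finset.range d, (10 / 17 : ℝ) ^ i := by
        rw [Finset.mul_sum]; exact Finset.sum_congr rfl fun i _ => by ring
    _ ≤ (10 / 17) * (17 / 7) := by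
        gcongr
        rw [geom_sum_eq (by norm_num)]
        have : (0:ℝ) < (10 / 17 : ℝ) ^ d := by positivity
        rw [div_le_iff_of_neg (by norm_num)]
        linarith
    _ ≤ 2 := by norm_num

lemma extend_sum {b : ℝ} (hb : 17 / 10 ≤ b) (x : ℤ → ℝ) (hx : ∀ n, 0 ≤ x n) (L : ℕ) (C η : ℝ)
    (hη : 0 ≤ η) (h1 : ∀ K : ℕ, ∑ n ∈ Finset.Icc (-(K:ℤ)) L, x n ≤ C)
    (h2 : ∀ n : ℤ, (L:ℤ) ≤ n → x n ≤ b ^ ((L:ℤ) - n) + η) (K N : ℕ) :
    ∑ n ∈ Finset.Icc (-(K:ℤ)) N, x n ≤ C + 2 + N * η := by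
  rcases le_or_gt N L with h | h
  · have : ∑ n ∈ Finset.Icc (-(K:ℤ)) N, x n ≤ ∑ n ∈ Finset.Icc (-(K:ℤ)) L, x n := by
      apply Finset.sum_le_sum_of_subset_of_nonneg
      · intro n hn
        simp only [Finset.mem_Icc] at hn ⊢
        omega
      · intro n _ _
        exact hx n
    have h3 := h1 K
    have : 0 ≤ (N:ℝ) * η := by positivity
    linarith
  · have h3 : Finset.Icc (-(K:ℤ)) N = Finset.Icc (-(K:ℤ)) L ∪ Finset.Ioc (L:ℤ) N := by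
      ext n
      simp only [Finset.mem_Icc, Finset.mem_union, Finset.mem_Ioc]
      omega
    have h4 : Disjoint (Finset.Icc (-(K:ℤ)) L) (Finset.Ioc (L:ℤ) N) := by
      rw [Finset.disjoint_left]
      intro n hn hn2
      simp only [Finset.mem_Icc, Finset.mem_Ioc] at hn hn2
      omega
    rw [h3, Finset.sum_union h4]
    have h5 : ∑ n ∈ Finset.Ioc (L:ℤ) N, x n ≤ ∑ n ∈ Finset.Ioc (L:ℤ) N, (b ^ ((L:ℤ) - n) + η) := by
      apply Finset.sum_le_sum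
      intro n hn
      simp only [Finset.mem_Ioc] at hn
      exact h2 n hn.1.le
    rw [Finset.sum_add_distrib, Finset.sum_const, nsmul_eq_mul] at h5
    have h6 := geom_tail hb L N
    have h7 : ((Finset.Ioc (L:ℤ) N).card : ℝ) ≤ N := by
      rw [Int.card_Ioc]
      have : ((N:ℤ) - L).toNat ≤ N := by omega
      exact_mod_cast this
    have h8 := h1 K
    nlinarith

/-! ### product of two cosines -/

lemma cos_sub_eq {x y : ℝ} (hx : Real.cos x ≠ 0) (hy : Real.cos y ≠ 0) :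
    Real.cos (x - y) = Real.cos x * Real.cos y * (1 + Real.tan x * Real.tan y) := by
  rw [Real.cos_sub, Real.tan_eq_sin_div_cos, Real.tan_eq_sin_div_cos]
  field_simp

lemma sub_facts {x y : ℝ} (hx : Real.cos x ≠ 0) (hy : Real.cos y ≠ 0)
    (h : |Real.tan x| * |Real.tan y| ≤ 1 / 2) :
    Real.cos (x - y) ≠ 0 ∧ |Real.tan (x - y)| ≤ 2 * (|Real.tan x| + |Real.tan y|) ∧
      -Real.log |Real.cos (x - y)| ≤ -Real.log |Real.cos x| + -Real.log |Real.cos y|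
        + 2 * (|Real.tan x| * |Real.tan y|) := by
  have h0 : |Real.tan x * Real.tan y| ≤ 1 / 2 := by rwa [abs_mul]
  have h1 : 1 / 2 ≤ 1 + Real.tan x * Real.tan y := by
    have := neg_abs_le (Real.tan x * Real.tan y)
    linarith
  have hc := cos_sub_eq hx hy
  refine ⟨?_, ?_, ?_⟩
  · rw [hc]
    have : 1 + Real.tan x * Real.tan y ≠ 0 := by linarith
    positivity
  · have h2 : Real.tan (x - y) = (Real.tan x - Real.tan y) / (1 + Real.tan x * Real.tan y) := by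
      rw [Real.tan_eq_sin_div_cos (x - y), hc, Real.sin_sub]
      rw [Real.tan_eq_sin_div_cos, Real.tan_eq_sin_div_cos] at *
      field_simp
    rw [h2, abs_div, div_le_iff₀ (by rw [abs_of_pos (by linarith)]; linarith),
      abs_of_pos (by linarith : 0 < 1 + Real.tan x * Real.tan y)]
    have h3 := abs_sub (Real.tan x) (Real.tan y)
    have h4 := abs_nonneg (Real.tan x)
    have h5 := abs_nonneg (Real.tan y)
    nlinarith
  · rw [hc, abs_mul, abs_mul, Real.log_mul (by positivity) (by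
      rw [abs_ne_zero]; linarith), Real.log_mul (by positivity) (by positivity),
      abs_of_pos (by linarith : 0 < 1 + Real.tan x * Real.tan y)]
    have h2 := Real.one_sub_inv_le_log_of_pos (by linarith : 0 < 1 + Real.tan x * Real.tan y)
    have h3 : (1 + Real.tan x * Real.tan y)⁻¹ ≤ 1 + 2 * (|Real.tan x| * |Real.tan y|) := by
      rw [inv_le_iff_one_le_mul₀ (by linarith)]
      have h4 : -(|Real.tan x| * |Real.tan y|) ≤ Real.tan x * Real.tan y := by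
        rw [← abs_mul]; exact neg_abs_le _
      have h5 : 0 ≤ |Real.tan x| * |Real.tan y| := by positivity
      nlinarith
    linarith

lemma zpow_neg_le {b : ℝ} (hb : 1 < b) {n : ℤ} {g : ℕ} (hn : n ≤ -g) {δ : ℝ}
    (hg : (b ^ g)⁻¹ ≤ δ) : b ^ n ≤ δ := by
  refine le_trans ?_ hg
  rw [← zpow_natCast, ← zpow_neg]
  exact zpow_le_zpow_right₀ hb.le hn

/-- pointwise bound for the overlaps -/
lemma Dat.overlap {b : ℝ} {z : ℂ} {p p' : ℝ} {w : ℂ} {L : ℕ} {δ T Y : ℝ}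
    (hD : Dat b z p p' w L δ T Y) (hb : 17 / 10 ≤ b) (hz : ‖z‖ = 1) (j g : ℕ)
    (hj : 2 * L + 2 * g ≤ j) (hg : (b ^ g)⁻¹ ≤ δ) (n : ℤ) :
    tt b p (n + j) * tt b p n ≤ δ * tt b p (n + j) + 2 * δ * tt b p n := by
  have hb1 : 1 < b := by linarith
  have hδ0 : 0 ≤ δ := le_trans (by positivity) hD.hw
  have h1 := tt_nonneg b p n
  have h2 := tt_nonneg b p (n + j)
  rcases le_or_gt n (-((L:ℤ) + g)) with h | h
  · have h3 := left_tt hb1 hD.hp1 hD.hp n (by omega)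
    have h4 : b ^ (n + L) ≤ δ := zpow_neg_le hb1 (by omega) hg
    nlinarith
  · have h3 := (right_all hb1 hz hD.tr hD.hp' hD.hw hD.hδ (n + j) (by push_cast; omega)).2.1
    have h4 : b ^ ((L:ℤ) - (n + j)) ≤ δ := zpow_neg_le hb1 (by omega) hg
    nlinarith

lemma Dat.overlap_sum {b : ℝ} {z : ℂ} {p p' : ℝ} {w : ℂ} {L : ℕ} {δ T Y : ℝ}
    (hD : Dat b z p p' w L δ T Y) (hb : 17 / 10 ≤ b) (hz : ‖z‖ = 1) (j g : ℕ)
    (hj : 2 * L + 2 * g ≤ j) (hg : (b ^ g)⁻¹ ≤ δ) (K N : ℕ) :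
    ∑ n ∈ Finset.Icc (-(K:ℤ)) N, tt b p (n + j) * tt b p n ≤
      3 * δ * (T + ((N + j : ℕ) : ℝ) * δ) := by
  have hδ0 : 0 ≤ δ := le_trans (by positivity) hD.hw
  have h1 : ∑ n ∈ Finset.Icc (-(K:ℤ)) N, tt b p (n + j) * tt b p n ≤
      ∑ n ∈ Finset.Icc (-(K:ℤ)) N, (δ * tt b p (n + j) + 2 * δ * tt b p n) :=
    Finset.sum_le_sum fun n _ => hD.overlap hb hz j g hj hg n
  rw [Finset.sum_add_distrib, ← Finset.mul_sum, ← Finset.mul_sum] at h1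
  have h2 := sum_shift (tt b p) (tt_nonneg b p) K N j
  have h3 := hD.hT K (N + j)
  have h4 := hD.hT K N
  have h5 : (N:ℝ) * δ ≤ ((N + j : ℕ) : ℝ) * δ := by
    gcongr; omega
  have h6 : ∑ n ∈ Finset.Icc (-(K:ℤ)) N, tt b p (n + j) ≤ T + ((N + j : ℕ) : ℝ) * δ := h2.trans h3
  nlinarith

theorem Dat.step {b : ℝ} {z : ℂ} {p p' : ℝ} {w : ℂ} {L : ℕ} {δ T Y : ℝ}
    (hD : Dat b z p p' w L δ T Y) (hb : 17 / 10 ≤ b) (hz : ‖z‖ = 1) (j g : ℕ)
    (hj2 : 2 ≤ j) (hj : 2 * L + 2 * g ≤ j) (hg : (b ^ g)⁻¹ ≤ δ) (U : ℝ)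
    (hU : T + ((L + j + j : ℕ) : ℝ) * δ ≤ U) (hS : 3 * δ * U ≤ 1 / 2)
    (δ' : ℝ) (hδ' : δ * ‖z ^ j - 1‖ ≤ δ') (hδ'2 : δ' ≤ 1 / 2) :
    Dat b z (p * (b ^ j - 1)) (p' * ((b⁻¹) ^ j - 1)) (w * (z ^ j - 1)) (L + j) δ'
      (4 * U + 2) (2 * Y + 2 * ((L + j + j : ℕ) : ℝ) * δ ^ 2 + 3) := by
  have hb1 : 1 < b := by linarith
  have hb0 : 0 < b := by linarith
  have hδ0 : 0 ≤ δ := le_trans (by positivity) hD.hw
  have hδ'0 : 0 ≤ δ' := le_trans (by positivity) hδ'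
  have hpi := Real.pi_pos
  have hbj : 2 ≤ b ^ j := by
    calc (2:ℝ) ≤ (17 / 10) ^ 2 := by norm_num
      _ ≤ b ^ 2 := by gcongr
      _ ≤ b ^ j := by gcongr; exact hb1.le
  have hp1 : 1 ≤ p * (b ^ j - 1) := by nlinarith [hD.hp1]
  have hp : 2 * Real.pi * (p * (b ^ j - 1)) ≤ b ^ (L + j) := by
    have h1 := hD.hp
    rw [pow_add]
    have h2 : 0 < 2 * Real.pi * p := by have := hD.hp1; positivity
    nlinarith
  have hp' : 2 * Real.pi * |p' * (b⁻¹ ^ j - 1)| ≤ b ^ (L + j) := by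
    have h1 := hD.hp'
    rw [pow_add, abs_mul]
    have h2 : |b⁻¹ ^ j - 1| ≤ 1 := by
      have h3 : b⁻¹ ^ j ≤ 1 := pow_le_one₀ (by positivity) (inv_le_one_of_one_le₀ hb1.le)
      have h4 : 0 < b⁻¹ ^ j := by positivity
      rw [abs_le]; constructor <;> linarith
    have h5 : 0 ≤ 2 * Real.pi * |p'| := by positivity
    calc 2 * Real.pi * (|p'| * |b⁻¹ ^ j - 1|) = (2 * Real.pi * |p'|) * |b⁻¹ ^ j - 1| := by ring
      _ ≤ b ^ L * b ^ j := by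
        apply mul_le_mul h1 (by linarith) (abs_nonneg _) (by positivity)
  have hw : 4 * Real.pi * ‖w * (z ^ j - 1)‖ ≤ δ' := by
    rw [norm_mul]
    calc 4 * Real.pi * (‖w‖ * ‖z ^ j - 1‖) = (4 * Real.pi * ‖w‖) * ‖z ^ j - 1‖ := by ring
      _ ≤ δ * ‖z ^ j - 1‖ := by gcongr; exact hD.hw
      _ ≤ δ' := hδ'
  have tr : ∀ n : ℕ, ∃ k : ℤ, p * (b ^ j - 1) * b ^ n + p' * (b⁻¹ ^ j - 1) * (b⁻¹) ^ n
      + 2 * (w * (z ^ j - 1) * z ^ n).re = 2 * k := by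
    intro n
    obtain ⟨k1, h1⟩ := hD.tr (n + j)
    obtain ⟨k2, h2⟩ := hD.tr n
    refine ⟨k1 - k2, ?_⟩
    push_cast
    have h3 : (w * (z ^ j - 1) * z ^ n).re = (w * z ^ (n + j)).re - (w * z ^ n).re := by
      rw [← Complex.sub_re]; congr 1; ring
    rw [h3]
    rw [pow_add, pow_add] at h1
    linear_combination h1 - h2
  -- overlaps
  have hsum : ∀ K : ℕ, ∑ n ∈ Finset.Icc (-(K:ℤ)) ((L + j : ℕ) : ℤ),
      tt b p (n + j) * tt b p n ≤ 3 * δ * U := by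
    intro K
    refine (hD.overlap_sum hb hz j g hj hg K (L + j)).trans ?_
    gcongr
  have hs : ∀ n : ℤ, n ≤ ((L + j : ℕ) : ℤ) → tt b p (n + j) * tt b p n ≤ 1 / 2 := by
    intro n hn
    have h1 := hsum n.natAbs
    refine le_trans ?_ (h1.trans hS)
    refine Finset.single_le_sum (f := fun n : ℤ => tt b p (n + j) * tt b p n)
      (fun i _ => mul_nonneg (tt_nonneg _ _ _) (tt_nonneg _ _ _)) ?_
    simp only [Finset.mem_Icc]
    omega
  have harg : ∀ n : ℤ, Real.pi * (p * (b ^ j - 1)) * b ^ n =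
      Real.pi * p * b ^ (n + j) - Real.pi * p * b ^ n := by
    intro n
    rw [zpow_add₀ hb0.ne', zpow_natCast]; ring
  have hfacts : ∀ n : ℤ, n ≤ ((L + j : ℕ) : ℤ) →
      Real.cos (Real.pi * (p * (b ^ j - 1)) * b ^ n) ≠ 0 ∧
      tt b (p * (b ^ j - 1)) n ≤ 2 * (tt b p (n + j) + tt b p n) ∧
      ps b (p * (b ^ j - 1)) n ≤ ps b p (n + j) + ps b p n + 2 * (tt b p (n + j) * tt b p n) := by
    intro n hn
    have h1 := sub_facts (hD.nz (n + j)) (hD.nz n) (hs n hn)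
    unfold tt ps
    rw [harg n]
    exact h1
  have hright : ∀ n : ℤ, ((L + j : ℕ) : ℤ) ≤ n → _ := fun n hn =>
    right_all (b := b) (z := z) (p := p * (b ^ j - 1)) (p' := p' * (b⁻¹ ^ j - 1))
      (w := w * (z ^ j - 1)) (L := L + j) (δ := δ') hb1 hz tr hp' hw hδ'2 n hn
  refine ⟨tr, hp1, hp, hp', hw, hδ'2, ?_, ?_, ?_⟩
  · intro n
    rcases le_or_gt n ((L + j : ℕ) : ℤ) with h | h
    · exact (hfacts n h).1
    · exact (hright n h.le).1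
  · refine extend_sum hb _ (tt_nonneg b _) (L + j) (4 * U) δ' hδ'0 ?_ (fun n hn => (hright n hn).2.1)
    intro K
    have h1 : ∑ n ∈ Finset.Icc (-(K:ℤ)) ((L + j : ℕ) : ℤ), tt b (p * (b ^ j - 1)) n ≤
        ∑ n ∈ Finset.Icc (-(K:ℤ)) ((L + j : ℕ) : ℤ), 2 * (tt b p (n + j) + tt b p n) :=
      Finset.sum_le_sum fun n hn => (hfacts n (by simp only [Finset.mem_Icc] at hn; exact hn.2)).2.1
    rw [← Finset.mul_sum, Finset.sum_add_distrib] at h1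
    have h2 := sum_shift (tt b p) (tt_nonneg b p) K (L + j) j
    have h3 := hD.hT K (L + j + j)
    have h4 := hD.hT K (L + j)
    have h5 : ((L + j : ℕ) : ℝ) * δ ≤ ((L + j + j : ℕ) : ℝ) * δ := by
      gcongr; omega
    linarith
  · have hmain := extend_sum hb (ps b (p * (b ^ j - 1))) (ps_nonneg b _) (L + j)
      (2 * Y + 2 * ((L + j + j : ℕ) : ℝ) * δ ^ 2 + 1) (δ' ^ 2) (by positivity) ?_
      (fun n hn => (hright n hn).2.2)
    · intro K N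
      have := hmain K N
      linarith
    intro K
    have h1 : ∑ n ∈ Finset.Icc (-(K:ℤ)) ((L + j : ℕ) : ℤ), ps b (p * (b ^ j - 1)) n ≤
        ∑ n ∈ Finset.Icc (-(K:ℤ)) ((L + j : ℕ) : ℤ),
          (ps b p (n + j) + ps b p n + 2 * (tt b p (n + j) * tt b p n)) :=
      Finset.sum_le_sum fun n hn => (hfacts n (by simp only [Finset.mem_Icc] at hn; exact hn.2)).2.2
    rw [Finset.sum_add_distrib, Finset.sum_add_distrib, ← Finset.mul_sum] at h1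
    have h2 := sum_shift (ps b p) (ps_nonneg b p) K (L + j) j
    have h3 := hD.hY K (L + j + j)
    have h4 := hD.hY K (L + j)
    have h5 : ((L + j : ℕ) : ℝ) * δ ^ 2 ≤ ((L + j + j : ℕ) : ℝ) * δ ^ 2 := by
      gcongr; omega
    have h6 := hsum K
    linarith

end Crest.Agent.S0137
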